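import Vale.Agent.P088.R2.H205.C.SpecP

/-!
# Zone I: the weight `φ(u) + e^u Ψ(|x - y|²)` with a curved `u`: derivatives
-/

open Set Finset
open scoped ContDiff

noncomputable section

namespace Vale.Agent.P088.R2.H321.ZI

open Vale.Agent.P088.LR Vale.Agent.P088.HY
open Vale.Agent.P088.R2.H644 Vale.Agent.P088.R2.H205.CP

variable {n : ℕ}

/-- The functions of one variable. -/
structure Fn where
  φ : ℝ → ℝ
  φ₁ : ℝ → ℝ
  φ₂ : ℝ → ℝ
  φ₃ : ℝ → ℝ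
  φ₄ : ℝ → ℝ
  Ψ : ℝ → ℝ
  Ψ₁ : ℝ → ℝ
  Ψ₂ : ℝ → ℝ
  Ψ₃ : ℝ → ℝ
  Ψ₄ : ℝ → ℝ

/-- The derivatives. -/
structure FnD (w : Fn) : Prop where
  a1 : ∀ s, HasDerivAt w.φ (w.φ₁ s) s
  a2 : ∀ s, HasDerivAt w.φ₁ (w.φ₂ s) s
  a3 : ∀ s, HasDerivAt w.φ₂ (w.φ₃ s) s
  a4 : ∀ s, HasDerivAt w.φ₃ (w.φ₄ s) s
  b1 : ∀ s, HasDerivAt w.Ψ (w.Ψ₁ s) s
  b2 : ∀ s, HasDerivAt w.Ψ₁ (w.Ψ₂ s) s
  b3 : ∀ s, HasDerivAt w.Ψ₂ (w.Ψ₃ s) s
  b4 : ∀ s, HasDerivAt w.Ψ₃ (w.Ψ₄ s) s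

variable (u : VV n → ℝ) (w : Fn)

/-- The weight. -/
def W0 (z : VV n) : ℝ := w.φ (u z) + Real.exp (u z) * w.Ψ (qq z)

/-- The coefficient of `u_v` in `W_v`. -/
def Aa (z : VV n) : ℝ := w.φ₁ (u z) + Real.exp (u z) * w.Ψ (qq z)

/-- The coefficient of `u_v²` in `W_vv`. -/
def Bb (z : VV n) : ℝ := w.φ₂ (u z) + Real.exp (u z) * w.Ψ (qq z)

/-- `e^u Ψ_j`. -/
def e1 (z : VV n) : ℝ := Real.exp (u z) * w.Ψ₁ (qq z)
def e2 (z : VV n) : ℝ := Real.exp (u z) * w.Ψ₂ (qq z)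
def e3 (z : VV n) : ℝ := Real.exp (u z) * w.Ψ₃ (qq z)

/-- `q · (v₁ - v₂)`. -/
def qd (v z : VV n) : ℝ := ∑ j, qv j z * (v.1 j - v.2 j)

theorem dd_qq2 (v z : VV n) : dd v qq z = 2 * qd v z := dd_qq v z

theorem cd_dd {f : VV n → ℝ} (hf : ContDiff ℝ ∞ f) (v : VV n) : ContDiff ℝ ∞ (dd v f) :=
  (hf.fderiv_right (m := ∞) (by simp)).clm_apply contDiff_const

theorem cdx {f : VV n → ℝ} (hf : ContDiff ℝ ∞ f) (i : Fin n) : ContDiff ℝ ∞ (dx i f) :=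
  cd_dd hf _

theorem cdy {f : VV n → ℝ} (hf : ContDiff ℝ ∞ f) (i : Fin n) : ContDiff ℝ ∞ (dy i f) :=
  cd_dd hf _

theorem dfb {f : VV n → ℝ} (hf : ContDiff ℝ ∞ f) (z : VV n) : DifferentiableAt ℝ f z :=
  hf.contDiffAt.differentiableAt (by simp)

theorem HDs {f : VV n → ℝ} (hf : ContDiff ℝ ∞ f) (v z : VV n) : HD v f (dd v f z) z :=
  ⟨dfb hf z, rfl⟩

variable {u} {w}

theorem HDe (hu : ContDiff ℝ ∞ u) (v z : VV n) :
    HD v (fun z => Real.exp (u z)) (Real.exp (u z) * dd v u z) z :=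
  (HDs hu v z).comp (Real.hasDerivAt_exp _)

theorem HDq {f f' : ℝ → ℝ} (h : ∀ s, HasDerivAt f (f' s) s) (v z : VV n) :
    HD v (fun z => f (qq z)) (f' (qq z) * (2 * qd v z)) z := by
  have := (HD.qq v z).comp (h (qq z))
  rwa [dd_qq2] at this

/-- `e^u f(qq)`. -/
theorem HDeq (hu : ContDiff ℝ ∞ u) {f f' : ℝ → ℝ} (h : ∀ s, HasDerivAt f (f' s) s) (v z : VV n) :
    HD v (fun z => Real.exp (u z) * f (qq z))
      (Real.exp (u z) * f (qq z) * dd v u z + 2 * (Real.exp (u z) * f' (qq z)) * qd v z) z := by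
  have := (HDe hu v z).mul (HDq h v z)
  refine ⟨this.d, this.e.trans ?_⟩
  ring

theorem HDu (hu : ContDiff ℝ ∞ u) {f f' : ℝ → ℝ} (h : ∀ s, HasDerivAt f (f' s) s) (v z : VV n) :
    HD v (fun z => f (u z)) (f' (u z) * dd v u z) z := (HDs hu v z).comp (h (u z))

theorem HD_W (hu : ContDiff ℝ ∞ u) (hw : FnD w) (v z : VV n) :
    HD v (W0 u w) (Aa u w z * dd v u z + 2 * e1 u w z * qd v z) z := by
  have := (HDu hu hw.a1 v z).add (HDeq hu hw.b1 v z)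
  refine ⟨this.d, this.e.trans ?_⟩
  unfold Aa e1
  ring

theorem HD_A (hu : ContDiff ℝ ∞ u) (hw : FnD w) (v z : VV n) :
    HD v (Aa u w) (Bb u w z * dd v u z + 2 * e1 u w z * qd v z) z := by
  have := (HDu hu hw.a2 v z).add (HDeq hu hw.b1 v z)
  refine ⟨this.d, this.e.trans ?_⟩
  unfold Bb e1
  ring

theorem HD_B (hu : ContDiff ℝ ∞ u) (hw : FnD w) (v z : VV n) :
    HD v (Bb u w) ((w.φ₃ (u z) + Real.exp (u z) * w.Ψ (qq z)) * dd v u z +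
      2 * e1 u w z * qd v z) z := by
  have := (HDu hu hw.a3 v z).add (HDeq hu hw.b1 v z)
  refine ⟨this.d, this.e.trans ?_⟩
  unfold e1
  ring

theorem HD_e1 (hu : ContDiff ℝ ∞ u) (hw : FnD w) (v z : VV n) :
    HD v (e1 u w) (e1 u w z * dd v u z + 2 * e2 u w z * qd v z) z := HDeq hu hw.b2 v z

theorem HD_e2 (hu : ContDiff ℝ ∞ u) (hw : FnD w) (v z : VV n) :
    HD v (e2 u w) (e2 u w z * dd v u z + 2 * e3 u w z * qd v z) z := HDeq hu hw.b3 v z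

theorem qd_x (i : Fin n) (z : VV n) : qd (Pi.single i 1, 0) z = qv i z := by
  simp [qd, Pi.single_apply]

theorem qd_y (i : Fin n) (z : VV n) : qd (0, Pi.single i 1) z = -qv i z := by
  simp [qd, Pi.single_apply]

theorem dx_W (hu : ContDiff ℝ ∞ u) (hw : FnD w) (i : Fin n) (z : VV n) :
    dx i (W0 u w) z = Aa u w z * dx i u z + 2 * (e1 u w z * qv i z) := by
  rw [dx_eq, (HD_W hu hw _ z).e, qd_x, ← dx_eq]
  ring

theorem dy_W (hu : ContDiff ℝ ∞ u) (hw : FnD w) (i : Fin n) (z : VV n) :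
    dy i (W0 u w) z = Aa u w z * dy i u z + (-2) * (e1 u w z * qv i z) := by
  rw [dy_eq, (HD_W hu hw _ z).e, qd_y, ← dy_eq]
  ring

theorem HD_dxW (hu : ContDiff ℝ ∞ u) (hw : FnD w) (i : Fin n) (v z : VV n) :
    HD v (dx i (W0 u w)) ((Bb u w z * dd v u z + 2 * e1 u w z * qd v z) * dx i u z +
      Aa u w z * dd v (dx i u) z + 2 * (e1 u w z * dd v u z + 2 * e2 u w z * qd v z) * qv i z +
      2 * e1 u w z * (v.1 i - v.2 i)) z := by
  have h : dx i (W0 u w) = fun z => Aa u w z * dx i u z + 2 * (e1 u w z * qv i z) :=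
    funext (dx_W hu hw i)
  rw [h]
  have := ((HD_A hu hw v z).mul (HDs (cdx hu i) v z)).add
    (((HD_e1 hu hw v z).mul (HD.qv v z i)).cmul 2)
  refine ⟨this.d, this.e.trans ?_⟩
  ring

theorem HD_dyW (hu : ContDiff ℝ ∞ u) (hw : FnD w) (i : Fin n) (v z : VV n) :
    HD v (dy i (W0 u w)) ((Bb u w z * dd v u z + 2 * e1 u w z * qd v z) * dy i u z +
      Aa u w z * dd v (dy i u) z - 2 * (e1 u w z * dd v u z + 2 * e2 u w z * qd v z) * qv i z -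
      2 * e1 u w z * (v.1 i - v.2 i)) z := by
  have h : dy i (W0 u w) = fun z => Aa u w z * dy i u z + (-2) * (e1 u w z * qv i z) :=
    funext (dy_W hu hw i)
  rw [h]
  have := ((HD_A hu hw v z).mul (HDs (cdy hu i) v z)).add
    (((HD_e1 hu hw v z).mul (HD.qv v z i)).cmul (-2))
  refine ⟨this.d, this.e.trans ?_⟩
  ring

/-! ### The Hessian form -/

theorem qd_eq (v z : VV n) : qd v z = ∑ i, v.1 i * qv i z - ∑ i, v.2 i * qv i z := by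
  rw [qd, ← sum_sub_distrib]
  exact sum_congr rfl fun i _ => by ring

theorem hs_W (hu : ContDiff ℝ ∞ u) (hw : FnD w) (v z : VV n) :
    hs (W0 u w) v z = Bb u w z * dd v u z ^ 2 + 4 * e1 u w z * qd v z * dd v u z +
      Aa u w z * hs u v z + 4 * e2 u w z * qd v z ^ 2 +
      2 * e1 u w z * s2 (v.1 - v.2) := by
  unfold hs
  simp only [(HD_dxW hu hw _ v z).e, (HD_dyW hu hw _ v z).e]
  have h1 : dd v u z = ∑ j, v.1 j * dx j u z + ∑ j, v.2 j * dy j u z := dd_split v u z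
  have h2 := qd_eq v z
  have h3 : s2 (v.1 - v.2) = ∑ i, v.1 i * (v.1 i - v.2 i) - ∑ i, v.2 i * (v.1 i - v.2 i) := by
    rw [s2, ← sum_sub_distrib]
    refine sum_congr rfl fun i _ => ?_
    rw [Pi.sub_apply]
    ring
  have k1 : ∑ i, v.1 i * ((Bb u w z * dd v u z + 2 * e1 u w z * qd v z) * dx i u z +
      Aa u w z * dd v (dx i u) z + 2 * (e1 u w z * dd v u z + 2 * e2 u w z * qd v z) * qv i z +
      2 * e1 u w z * (v.1 i - v.2 i)) =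
      (Bb u w z * dd v u z + 2 * e1 u w z * qd v z) * ∑ i, v.1 i * dx i u z +
      Aa u w z * ∑ i, v.1 i * dd v (dx i u) z +
      2 * (e1 u w z * dd v u z + 2 * e2 u w z * qd v z) * ∑ i, v.1 i * qv i z +
      2 * e1 u w z * ∑ i, v.1 i * (v.1 i - v.2 i) := by
    simp only [mul_sum, ← sum_add_distrib]
    exact sum_congr rfl fun i _ => by ring
  have k2 : ∑ i, v.2 i * ((Bb u w z * dd v u z + 2 * e1 u w z * qd v z) * dy i u z +
      Aa u w z * dd v (dy i u) z - 2 * (e1 u w z * dd v u z + 2 * e2 u w z * qd v z) * qv i z -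
      2 * e1 u w z * (v.1 i - v.2 i)) =
      (Bb u w z * dd v u z + 2 * e1 u w z * qd v z) * ∑ i, v.2 i * dy i u z +
      Aa u w z * ∑ i, v.2 i * dd v (dy i u) z -
      2 * (e1 u w z * dd v u z + 2 * e2 u w z * qd v z) * ∑ i, v.2 i * qv i z -
      2 * e1 u w z * ∑ i, v.2 i * (v.1 i - v.2 i) := by
    simp only [mul_sum, ← sum_add_distrib, ← sum_sub_distrib]
    exact sum_congr rfl fun i _ => by ring
  rw [k1, k2, h3]
  generalize (∑ i, v.1 i * dx i u z) = a1 at h1 ⊢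
  generalize (∑ i, v.2 i * dy i u z) = a2 at h1 ⊢
  generalize (∑ i, v.1 i * qv i z) = b1 at h2 ⊢
  generalize (∑ i, v.2 i * qv i z) = b2 at h2 ⊢
  rw [h1, h2]
  ring

end Vale.Agent.P088.R2.H321.ZI
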