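import Vale.Agent.P088.R2.H321.ZI.PU1

/-!
# Zone I: second and third derivatives of the weight `φ(u) + e^u Ψ(|x - y|²)`
-/

open Set Finset
open scoped ContDiff

noncomputable section

namespace Vale.Agent.P088.R2.H321.ZI

open Vale.Agent.P088.LR Vale.Agent.P088.HY
open Vale.Agent.P088.R2.H644 Vale.Agent.P088.R2.H205.CP

variable {n : ℕ} {u : VV n → ℝ} {w : Fn}

theorem HD_sum {ι : Type*} (s : Finset ι) {f : ι → VV n → ℝ} {a : ι → ℝ} {v z : VV n}
    (h : ∀ i ∈ s, HD v (f i) (a i) z) : HD v (fun z => ∑ i ∈ s, f i z) (∑ i ∈ s, a i) z := by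
  refine ⟨?_, ?_⟩
  · exact DifferentiableAt.fun_sum fun i hi => (h i hi).d
  · rw [dd_sum s fun i hi => (h i hi).d]
    exact sum_congr rfl fun i hi => (h i hi).e

/-! ### The entries of the Hessian -/

/-- `W_xx = 2 e^u Ψ' + Rxx`. -/
def Rxx (u : VV n → ℝ) (w : Fn) (z : VV n) (i l : Fin n) : ℝ :=
  Bb u w z * (dx i u z * dx l u z) +
    2 * e1 u w z * (qv i z * dx l u z + dx i u z * qv l z) + 4 * e2 u w z * (qv i z * qv l z) +
    Aa u w z * dx i (dx l u) z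

def Rxy (u : VV n → ℝ) (w : Fn) (z : VV n) (i k : Fin n) : ℝ :=
  Bb u w z * (dx i u z * dy k u z) +
    2 * e1 u w z * (qv i z * dy k u z - dx i u z * qv k z) - 4 * e2 u w z * (qv i z * qv k z) +
    Aa u w z * dx i (dy k u) z

def Ryy (u : VV n → ℝ) (w : Fn) (z : VV n) (i l : Fin n) : ℝ :=
  Bb u w z * (dy i u z * dy l u z) -
    2 * e1 u w z * (qv i z * dy l u z + dy i u z * qv l z) + 4 * e2 u w z * (qv i z * qv l z) +
    Aa u w z * dy i (dy l u) z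

theorem xx_eq (hu : ContDiff ℝ ∞ u) (hw : FnD w) (i l : Fin n) (z : VV n) :
    dx i (dx l (W0 u w)) z = 2 * e1 u w z * (if i = l then 1 else 0) + Rxx u w z i l := by
  rw [dx_eq i, (HD_dxW hu hw l _ z).e, qd_x, ← dx_eq i, ← dx_eq i, Rxx]
  simp only [Pi.single_apply, Pi.zero_apply, eq_comm (a := l) (b := i)]
  split_ifs <;> ring

theorem xy_eq (hu : ContDiff ℝ ∞ u) (hw : FnD w) (i k : Fin n) (z : VV n) :
    dx i (dy k (W0 u w)) z = -(2 * e1 u w z) * (if i = k then 1 else 0) + Rxy u w z i k := by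
  rw [dx_eq i, (HD_dyW hu hw k _ z).e, qd_x, ← dx_eq i, ← dx_eq i, Rxy]
  simp only [Pi.single_apply, Pi.zero_apply, eq_comm (a := k) (b := i)]
  split_ifs <;> ring

theorem yy_eq (hu : ContDiff ℝ ∞ u) (hw : FnD w) (i l : Fin n) (z : VV n) :
    dy i (dy l (W0 u w)) z = 2 * e1 u w z * (if i = l then 1 else 0) + Ryy u w z i l := by
  rw [dy_eq i, (HD_dyW hu hw l _ z).e, qd_y, ← dy_eq i, ← dy_eq i, Ryy]
  simp only [Pi.single_apply, Pi.zero_apply, eq_comm (a := l) (b := i)]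
  split_ifs <;> ring

/-! ### The Laplacians -/

/-- `Λ_x W`. -/
def LX (u : VV n → ℝ) (w : Fn) (z : VV n) : ℝ :=
  Bb u w z * (∑ i, dx i u z * dx i u z) + 4 * (e1 u w z * ∑ i, qv i z * dx i u z) +
    4 * (e2 u w z * qq z) + Aa u w z * lx u z + 2 * n * e1 u w z

def LY (u : VV n → ℝ) (w : Fn) (z : VV n) : ℝ :=
  Bb u w z * (∑ i, dy i u z * dy i u z) + (-4) * (e1 u w z * ∑ i, qv i z * dy i u z) +
    4 * (e2 u w z * qq z) + Aa u w z * ly u z + 2 * n * e1 u w z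

theorem qq_sum (z : VV n) : qq z = ∑ i, qv i z * qv i z := by
  rw [qq_eq]
  exact sum_congr rfl fun i _ => by ring

theorem lx_W (hu : ContDiff ℝ ∞ u) (hw : FnD w) : lx (W0 u w) = LX u w := by
  funext z
  unfold lx LX
  simp only [xx_eq hu hw, if_true, Rxx]
  rw [qq_sum]
  have : ∀ i : Fin n, 2 * e1 u w z * 1 + (Bb u w z * (dx i u z * dx i u z) +
      2 * e1 u w z * (qv i z * dx i u z + dx i u z * qv i z) +
      4 * e2 u w z * (qv i z * qv i z) + Aa u w z * dx i (dx i u) z) =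
      Bb u w z * (dx i u z * dx i u z) + 4 * (e1 u w z * (qv i z * dx i u z)) +
      4 * (e2 u w z * (qv i z * qv i z)) + Aa u w z * dx i (dx i u) z + 2 * e1 u w z :=
    fun i => by ring
  simp only [this, sum_add_distrib, sum_const, card_univ, Fintype.card_fin, nsmul_eq_mul]
  unfold lx
  simp only [mul_sum]
  ring

theorem ly_W (hu : ContDiff ℝ ∞ u) (hw : FnD w) : ly (W0 u w) = LY u w := by
  funext z
  unfold ly LY
  simp only [yy_eq hu hw, if_true, Ryy]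
  rw [qq_sum]
  have : ∀ i : Fin n, 2 * e1 u w z * 1 + (Bb u w z * (dy i u z * dy i u z) -
      2 * e1 u w z * (qv i z * dy i u z + dy i u z * qv i z) +
      4 * e2 u w z * (qv i z * qv i z) + Aa u w z * dy i (dy i u) z) =
      Bb u w z * (dy i u z * dy i u z) + (-4) * (e1 u w z * (qv i z * dy i u z)) +
      4 * (e2 u w z * (qv i z * qv i z)) + Aa u w z * dy i (dy i u) z + 2 * e1 u w z :=
    fun i => by ring
  simp only [this, sum_add_distrib, sum_const, card_univ, Fintype.card_fin, nsmul_eq_mul]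
  unfold ly
  simp only [mul_sum]
  ring

theorem cd_lx (hu : ContDiff ℝ ∞ u) : ContDiff ℝ ∞ (lx u) :=
  ContDiff.sum fun i _ => cdx (cdx hu i) i

theorem cd_ly (hu : ContDiff ℝ ∞ u) : ContDiff ℝ ∞ (ly u) :=
  ContDiff.sum fun i _ => cdy (cdy hu i) i

/-- `∂_v (e^u Ψ_j)`. -/
def E1' (u : VV n → ℝ) (w : Fn) (v z : VV n) : ℝ :=
  e1 u w z * dd v u z + 2 * e2 u w z * qd v z

def E2' (u : VV n → ℝ) (w : Fn) (v z : VV n) : ℝ :=
  e2 u w z * dd v u z + 2 * e3 u w z * qd v z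

/-- `∂_v A`. -/
def A' (u : VV n → ℝ) (w : Fn) (v z : VV n) : ℝ :=
  Bb u w z * dd v u z + 2 * e1 u w z * qd v z

/-- `∂_v B`. -/
def B' (u : VV n → ℝ) (w : Fn) (v z : VV n) : ℝ :=
  (w.φ₃ (u z) + Real.exp (u z) * w.Ψ (qq z)) * dd v u z + 2 * e1 u w z * qd v z

/-- `∂_v Λ_x W`. -/
def LX' (u : VV n → ℝ) (w : Fn) (v z : VV n) : ℝ :=
  B' u w v z * (∑ i, dx i u z * dx i u z) + Bb u w z * (2 * ∑ i, dx i u z * dd v (dx i u) z) +
    4 * (E1' u w v z * (∑ i, qv i z * dx i u z) +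
      e1 u w z * ∑ i, ((v.1 i - v.2 i) * dx i u z + qv i z * dd v (dx i u) z)) +
    4 * (E2' u w v z * qq z + e2 u w z * (2 * qd v z)) +
    (A' u w v z * lx u z + Aa u w z * dd v (lx u) z) + 2 * n * E1' u w v z

def LY' (u : VV n → ℝ) (w : Fn) (v z : VV n) : ℝ :=
  B' u w v z * (∑ i, dy i u z * dy i u z) + Bb u w z * (2 * ∑ i, dy i u z * dd v (dy i u) z) +
    (-4) * (E1' u w v z * (∑ i, qv i z * dy i u z) +
      e1 u w z * ∑ i, ((v.1 i - v.2 i) * dy i u z + qv i z * dd v (dy i u) z)) +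
    4 * (E2' u w v z * qq z + e2 u w z * (2 * qd v z)) +
    (A' u w v z * ly u z + Aa u w z * dd v (ly u) z) + 2 * n * E1' u w v z

theorem HD_LX (hu : ContDiff ℝ ∞ u) (hw : FnD w) (v z : VV n) :
    HD v (LX u w) (LX' u w v z) z := by
  have a := HD_sum univ fun i _ => (HDs (cdx hu i) v z).mul (HDs (cdx hu i) v z)
  have b := HD_sum univ fun i _ => (HD.qv v z i).mul (HDs (cdx hu i) v z)
  have c : HD v qq (2 * qd v z) z := ⟨diff_qq z, dd_qq2 v z⟩
  have h := (((((HD_B hu hw v z).mul a).add (((HD_e1 hu hw v z).mul b).cmul 4)).add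
    (((HD_e2 hu hw v z).mul c).cmul 4)).add ((HD_A hu hw v z).mul (HDs (cd_lx hu) v z))).add
    ((HD_e1 hu hw v z).cmul (2 * n))
  refine ⟨h.d, h.e.trans ?_⟩
  have e : ∑ i, (dd v (dx i u) z * dx i u z + dx i u z * dd v (dx i u) z) =
      2 * ∑ i, dx i u z * dd v (dx i u) z := by
    rw [mul_sum]
    exact sum_congr rfl fun i _ => by ring
  rw [e]
  unfold LX' B' A' E1' E2'
  ring

theorem HD_LY (hu : ContDiff ℝ ∞ u) (hw : FnD w) (v z : VV n) :
    HD v (LY u w) (LY' u w v z) z := by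
  have a := HD_sum univ fun i _ => (HDs (cdy hu i) v z).mul (HDs (cdy hu i) v z)
  have b := HD_sum univ fun i _ => (HD.qv v z i).mul (HDs (cdy hu i) v z)
  have c : HD v qq (2 * qd v z) z := ⟨diff_qq z, dd_qq2 v z⟩
  have h := (((((HD_B hu hw v z).mul a).add (((HD_e1 hu hw v z).mul b).cmul (-4))).add
    (((HD_e2 hu hw v z).mul c).cmul 4)).add ((HD_A hu hw v z).mul (HDs (cd_ly hu) v z))).add
    ((HD_e1 hu hw v z).cmul (2 * n))
  refine ⟨h.d, h.e.trans ?_⟩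
  have e : ∑ i, (dd v (dy i u) z * dy i u z + dy i u z * dd v (dy i u) z) =
      2 * ∑ i, dy i u z * dd v (dy i u) z := by
    rw [mul_sum]
    exact sum_congr rfl fun i _ => by ring
  rw [e]
  unfold LY' B' A' E1' E2'
  ring

/-! ### The star density -/

/-- `∑ |W_xx|² x² + 2 ∑ |W_xy|² x y + ∑ |W_yy|² y²`. -/
def ZZ (W : VV n → ℝ) (x y : ℝ) (z : VV n) : ℝ :=
  (∑ i, ∑ l, dx i (dx l W) z ^ 2) * x ^ 2 +
    2 * ((∑ i, ∑ k, dx i (dy k W) z ^ 2) * (x * y)) +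
    (∑ i, ∑ l, dy i (dy l W) z ^ 2) * y ^ 2

theorem st_W (hu : ContDiff ℝ ∞ u) (hw : FnD w) (U V : V n) (x y : ℝ) (z : VV n) :
    st (W0 u w) U V x y z = 8 * (Bb u w z * dd (U, V) u z ^ 2 +
      4 * e1 u w z * qd (U, V) z * dd (U, V) u z + Aa u w z * hs u (U, V) z +
      4 * e2 u w z * qd (U, V) z ^ 2 + 2 * e1 u w z * s2 (U - V)) -
    8 * ZZ (W0 u w) x y z - 8 * (x * LX' u w (U, V) z + y * LY' u w (U, V) z) +
    2 * (lx (LX u w) z * x ^ 2 + 2 * (lx (LY u w) z * (x * y)) + ly (LY u w) z * y ^ 2) := by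
  rw [st, q0, hs_W hu hw, ← (HD_LX hu hw _ z).e, ← (HD_LY hu hw _ z).e, lx_W hu hw,
    ly_W hu hw, dd_split _ (LX u w), dd_split _ (LY u w)]
  unfold ZZ
  have e : ∀ (U F : Fin n → ℝ), ∑ j, U j * F j = ∑ j, F j * U j := fun U F =>
    sum_congr rfl fun i _ => mul_comm _ _
  rw [e U fun j => dx j (LX u w) z, e V fun j => dy j (LX u w) z, e U fun j => dx j (LY u w) z,
    e V fun j => dy j (LY u w) z]
  ring

end Vale.Agent.P088.R2.H321.ZI
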