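import Vale.Agent.P088.R2.H321.ZI.PU4

/-!
# Zone I: third order terms, numbers
-/

noncomputable section

namespace Vale.Agent.P088.R2.H321.ZI

section

variable {M n Cs Cd η E K σ S y H b c X : ℝ}

theorem r1 (hn : 0 ≤ n) (hnM : n ≤ M) (hCd : 0 ≤ Cd) (hE : 0 ≤ E) (hK : 0 ≤ K) (h0 : 0 ≤ σ)
    (hσ : σ ≤ 1) (hS : 0 ≤ S) (hy : 0 ≤ y) (hX0 : 0 ≤ X) (hX : X ≤ 2 * (b + c)) :
    ((Cd + 1) * K * S + 2 * E * (σ * y)) * (4 * n * X) ≤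
      M * (8 * ((Cd + 1) * (K * S * b)) + 8 * ((Cd + 1) * (K * S * c)) + 16 * (E * y * b) +
        16 * (E * y * c)) := by
  have hM : 0 ≤ M := hn.trans hnM
  calc ((Cd + 1) * K * S + 2 * E * (σ * y)) * (4 * n * X) ≤
      ((Cd + 1) * K * S + 2 * E * (1 * y)) * (4 * M * (2 * (b + c))) := by gcongr
    _ = _ := by ring

theorem r2 (hn : 0 ≤ n) (hnM : n ≤ M) (hη : 0 ≤ η) (hK : 0 ≤ K) (hH : 0 ≤ H)
    (hX0 : 0 ≤ X) (hX : X ≤ 2 * (b + c)) :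
    2 * (2 * K) * (2 * n * η * H * X) ≤ M * (16 * (η * K * H * b) + 16 * (η * K * H * c)) := by
  have hM : 0 ≤ M := hn.trans hnM
  calc 2 * (2 * K) * (2 * n * η * H * X) ≤ 2 * (2 * K) * (2 * M * η * H * (2 * (b + c))) := by
        gcongr
    _ = _ := by ring

theorem r3 (hn : 0 ≤ n) (hnM : n ≤ M) (hCs : 0 ≤ Cs) (hnC : n * Cs ≤ M) (hη : 0 ≤ η)
    (hη1 : η ≤ 1) (hE : 0 ≤ E) (h0 : 0 ≤ σ) (hσ : σ ≤ 1) (hS : 0 ≤ S) (hy : 0 ≤ y)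
    (hb : 0 ≤ b) (hc : 0 ≤ c) :
    4 * (E * S + 2 * Cs * E * (σ * y)) * (n * σ * (4 * c + η * b)) ≤
      M * (16 * (E * σ * S * c) + 4 * (E * S * b) + 32 * (E * y * c) + 8 * (E * y * b)) := by
  have hM : 0 ≤ M := hn.trans hnM
  calc 4 * (E * S + 2 * Cs * E * (σ * y)) * (n * σ * (4 * c + η * b)) =
      16 * (n * (E * σ * S * c)) + 4 * (n * (E * S * (σ * η * b))) +
        32 * ((n * Cs) * (E * (σ * σ * y) * c)) + 8 * ((n * Cs) * (E * (σ * σ * y) * (η * b))) := by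
        ring
    _ ≤ 16 * (M * (E * σ * S * c)) + 4 * (M * (E * S * (1 * 1 * b))) +
        32 * (M * (E * (1 * 1 * y) * c)) + 8 * (M * (E * (1 * 1 * y) * (1 * b))) := by gcongr
    _ = _ := by ring

theorem r4 (hn : 0 ≤ n) (hnM : n ≤ M) (hη : 0 ≤ η) (hη1 : η ≤ 1) (hE : 0 ≤ E) (h0 : 0 ≤ σ)
    (hy : 0 ≤ y) (hH : 0 ≤ H) (hb : 0 ≤ b) (hc : 0 ≤ c) (hX0 : 0 ≤ X) (hX : X ≤ 2 * (b + c)) :
    4 * E * (n * y * (4 * c + η * b) + n * σ * η * H * X) ≤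
      M * (16 * (E * y * c) + 4 * (E * y * b) + 8 * (η * (E * σ) * H * b) +
        8 * (η * (E * σ) * H * c)) := by
  have hM : 0 ≤ M := hn.trans hnM
  calc 4 * E * (n * y * (4 * c + η * b) + n * σ * η * H * X) ≤
      4 * E * (M * y * (4 * c + 1 * b) + M * σ * η * H * (2 * (b + c))) := by gcongr
    _ = _ := by ring

theorem r5 (hCs : 0 ≤ Cs) (hCM : Cs ≤ M) (hE : 0 ≤ E) (h0 : 0 ≤ σ) (hσ : σ ≤ 1) (hS : 0 ≤ S)
    (hy : 0 ≤ y) (hb : 0 ≤ b) :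
    4 * (Cs * E * S + 4 * Cs * E * (σ * y)) * (2 * b) ≤
      M * (8 * (E * S * b) + 32 * (E * y * b)) := by
  have hM : 0 ≤ M := hCs.trans hCM
  calc 4 * (Cs * E * S + 4 * Cs * E * (σ * y)) * (2 * b) ≤
      4 * (M * E * S + 4 * M * E * (1 * y)) * (2 * b) := by gcongr
    _ = _ := by ring

theorem r6 (hn : 0 ≤ n) (hnM : n ≤ M) (hCd : 0 ≤ Cd) (hη : 0 ≤ η) (hη1 : η ≤ 1) (hE : 0 ≤ E)
    (hK : 0 ≤ K) (h0 : 0 ≤ σ) (hσ : σ ≤ 1) (hS : 0 ≤ S) (hy : 0 ≤ y) (hb : 0 ≤ b) (hc : 0 ≤ c)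
    (hX0 : 0 ≤ X) (hX : X ≤ 2 * (b + c)) :
    (2 * K * S + 2 * E * (σ * y)) * (n * η * X) ≤
      M * (4 * ((Cd + 1) * (K * S * b)) + 4 * ((Cd + 1) * (K * S * c)) + 4 * (E * y * b) +
        4 * (E * y * c)) := by
  have hM : 0 ≤ M := hn.trans hnM
  have h1 : (1 : ℝ) ≤ Cd + 1 := by linarith
  calc (2 * K * S + 2 * E * (σ * y)) * (n * η * X) ≤
      (2 * K * S + 2 * E * (1 * y)) * (M * 1 * (2 * (b + c))) := by gcongr
    _ = M * (4 * (1 * (K * S * b)) + 4 * (1 * (K * S * c)) + 4 * (E * y * b) +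
        4 * (E * y * c)) := by ring
    _ ≤ _ := by gcongr

theorem r7 (hn : 0 ≤ n) (hnM : n ≤ M) (hη : 0 ≤ η) (hK : 0 ≤ K) (hH : 0 ≤ H)
    (hX0 : 0 ≤ X) (hX : X ≤ 2 * (b + c)) :
    2 * n * (η * K) * H * X ≤ M * (4 * (η * K * H * b) + 4 * (η * K * H * c)) := by
  have hM : 0 ≤ M := hn.trans hnM
  calc 2 * n * (η * K) * H * X ≤ 2 * M * (η * K) * H * (2 * (b + c)) := by gcongr
    _ = _ := by ring

theorem r8 (hn : 0 ≤ n) (hnM : n ≤ M) (hCs : 0 ≤ Cs) (hnC : n * Cs ≤ M)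
    (hE : 0 ≤ E) (h0 : 0 ≤ σ) (hσ : σ ≤ 1) (hS : 0 ≤ S) (hy : 0 ≤ y) (hb : 0 ≤ b) :
    2 * n * (E * S + 2 * Cs * E * (σ * y)) * (2 * b) ≤
      M * (4 * (E * S * b) + 8 * (E * y * b)) := by
  have hM : 0 ≤ M := hn.trans hnM
  calc 2 * n * (E * S + 2 * Cs * E * (σ * y)) * (2 * b) =
      4 * (n * (E * S * b)) + 8 * ((n * Cs) * (E * (σ * y) * b)) := by ring
    _ ≤ 4 * (M * (E * S * b)) + 8 * (M * (E * (1 * y) * b)) := by gcongr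
    _ = _ := by ring

/-- The sum of the bounds. -/
theorem rsum (hM : 0 ≤ M) (hCd : 0 ≤ Cd) (hη : 0 ≤ η) (hE : 0 ≤ E) (hK : 0 ≤ K) (h0 : 0 ≤ σ)
    (hS : 0 ≤ S) (hy : 0 ≤ y) (hH : 0 ≤ H) (hb : 0 ≤ b) (hc : 0 ≤ c) :
    M * (8 * ((Cd + 1) * (K * S * b)) + 8 * ((Cd + 1) * (K * S * c)) + 16 * (E * y * b) +
        16 * (E * y * c)) + M * (16 * (η * K * H * b) + 16 * (η * K * H * c)) +
      M * (16 * (E * σ * S * c) + 4 * (E * S * b) + 32 * (E * y * c) + 8 * (E * y * b)) +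
      M * (16 * (E * y * c) + 4 * (E * y * b) + 8 * (η * (E * σ) * H * b) +
        8 * (η * (E * σ) * H * c)) +
      M * (8 * (E * S * b) + 32 * (E * y * b)) +
      M * (4 * ((Cd + 1) * (K * S * b)) + 4 * ((Cd + 1) * (K * S * c)) + 4 * (E * y * b) +
        4 * (E * y * c)) +
      M * (4 * (η * K * H * b) + 4 * (η * K * H * c)) +
      M * (4 * (E * S * b) + 8 * (E * y * b)) ≤ 72 * M * Gt Cd η E K σ S y H b c := by
  have h1 : 0 ≤ M * (E * S * b) := by positivity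
  have h3 : 0 ≤ M * (E * y * c) := by positivity
  have h4 : 0 ≤ M * ((Cd + 1) * (K * S * b)) := by positivity
  have h5 : 0 ≤ M * ((Cd + 1) * (K * S * c)) := by positivity
  have h6 : 0 ≤ M * (E * σ * S * c) := by positivity
  have h7 : 0 ≤ M * (η * K * H * b) := by positivity
  have h8 : 0 ≤ M * (η * K * H * c) := by positivity
  have h9 : 0 ≤ M * (η * (E * σ) * H * b) := by positivity
  have h10 : 0 ≤ M * (η * (E * σ) * H * c) := by positivity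
  unfold Gt
  nlinarith

end

/-- The third order terms. -/
theorem T_num {M n Cs Cd η E K σ s y H β γ α₁ α₂ : ℝ} (hn : 0 ≤ n) (hnM : n ≤ M)
    (hCs : 0 ≤ Cs) (hCM : Cs ≤ M) (hnC : n * Cs ≤ M) (hCd : 0 ≤ Cd) (hη : 0 ≤ η) (hη1 : η ≤ 1)
    (hE : 0 ≤ E) (hK : 0 ≤ K) (h0 : 0 ≤ σ) (hσ : σ ≤ 1) (hy : 0 ≤ y) (hH : 0 ≤ H)
    (e1 : α₁ = β + γ) (e2 : α₂ = β - γ)
    {B' B E1' e₁ E2' A' A G1 G2 G3 G4 G6 G7 : ℝ}
    (hB' : |B'| ≤ (Cd + 1) * K * |s| + 2 * E * (σ * y)) (hB : |B| ≤ 2 * K)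
    (hE1 : |E1'| ≤ E * |s| + 2 * Cs * E * (σ * y)) (he : |e₁| ≤ E)
    (hE2 : |E2'| ≤ Cs * E * |s| + 4 * Cs * E * (σ * y))
    (hA' : |A'| ≤ 2 * K * |s| + 2 * E * (σ * y))
    (g1 : |G1| ≤ 4 * n * (|α₁| + |α₂|)) (g2 : |G2| ≤ 2 * n * η * H * (|α₁| + |α₂|))
    (g3 : |G3| ≤ n * σ * (4 * |γ| + η * |β|))
    (g4 : |G4| ≤ n * y * (4 * |γ| + η * |β|) + n * σ * η * H * (|α₁| + |α₂|))
    (g6 : |G6| ≤ n * η * (|α₁| + |α₂|)) (g7 : |A * G7| ≤ 2 * n * (η * K) * H * (|α₁| + |α₂|)) :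
    |B' * G1 + 2 * B * G2 + 4 * E1' * G3 + 4 * e₁ * G4 + 4 * E2' * (α₁ + α₂) + A' * G6 +
      A * G7 + 2 * n * E1' * (α₁ + α₂)| ≤ 72 * M * Gt Cd η E K σ |s| y H |β| |γ| := by
  have hX : |α₁| + |α₂| ≤ 2 * (|β| + |γ|) := by
    have k1 := abs_add_le β γ
    have k2 : |β - γ| ≤ |β| + |γ| := by
      have := abs_add_le β (-γ)
      rwa [abs_neg, ← sub_eq_add_neg] at this
    rw [e1, e2]
    linarith
  have hX0 : 0 ≤ |α₁| + |α₂| := by positivity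
  have hs : |α₁ + α₂| = 2 * |β| := by
    rw [e1, e2, show β + γ + (β - γ) = 2 * β by ring, abs_mul]
    norm_num
  have hS := abs_nonneg s
  have hb := abs_nonneg β
  have hc := abs_nonneg γ
  have t1 : |B' * G1| ≤ ((Cd + 1) * K * |s| + 2 * E * (σ * y)) * (4 * n * (|α₁| + |α₂|)) := by
    rw [abs_mul]
    exact mul_le_mul hB' g1 (abs_nonneg _) (by positivity)
  have t2 : |2 * B * G2| ≤ 2 * (2 * K) * (2 * n * η * H * (|α₁| + |α₂|)) := by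
    rw [abs_mul, abs_mul, abs_of_pos (show (0 : ℝ) < 2 by norm_num)]
    exact mul_le_mul (by linarith) g2 (abs_nonneg _) (by positivity)
  have t3 : |4 * E1' * G3| ≤ 4 * (E * |s| + 2 * Cs * E * (σ * y)) *
      (n * σ * (4 * |γ| + η * |β|)) := by
    rw [abs_mul, abs_mul, abs_of_pos (show (0 : ℝ) < 4 by norm_num)]
    exact mul_le_mul (by linarith) g3 (abs_nonneg _) (by positivity)
  have t4 : |4 * e₁ * G4| ≤ 4 * E * (n * y * (4 * |γ| + η * |β|) +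
      n * σ * η * H * (|α₁| + |α₂|)) := by
    rw [abs_mul, abs_mul, abs_of_pos (show (0 : ℝ) < 4 by norm_num)]
    exact mul_le_mul (by linarith) g4 (abs_nonneg _) (by positivity)
  have t5 : |4 * E2' * (α₁ + α₂)| ≤ 4 * (Cs * E * |s| + 4 * Cs * E * (σ * y)) * (2 * |β|) := by
    rw [abs_mul, abs_mul, abs_of_pos (show (0 : ℝ) < 4 by norm_num), hs]
    exact mul_le_mul (by linarith) le_rfl (by positivity) (by positivity)
  have t6 : |A' * G6| ≤ (2 * K * |s| + 2 * E * (σ * y)) * (n * η * (|α₁| + |α₂|)) := by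
    rw [abs_mul]
    exact mul_le_mul hA' g6 (abs_nonneg _) (by positivity)
  have t8 : |2 * n * E1' * (α₁ + α₂)| ≤ 2 * n * (E * |s| + 2 * Cs * E * (σ * y)) *
      (2 * |β|) := by
    rw [abs_mul, abs_mul, abs_mul, abs_of_pos (show (0 : ℝ) < 2 by norm_num), abs_of_nonneg hn,
      hs]
    exact mul_le_mul (mul_le_mul_of_nonneg_left hE1 (by positivity)) le_rfl (by positivity)
      (by positivity)
  have u1 := r1 hn hnM hCd hE hK h0 hσ hS hy hX0 hX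
  have u2 := r2 hn hnM hη hK hH hX0 hX
  have u3 := r3 hn hnM hCs hnC hη hη1 hE h0 hσ hS hy hb hc
  have u4 := r4 hn hnM hη hη1 hE h0 hy hH hb hc hX0 hX
  have u5 := r5 hCs hCM hE h0 hσ hS hy hb
  have u6 := r6 hn hnM hCd hη hη1 hE hK h0 hσ hS hy hb hc hX0 hX
  have u7 := r7 hn hnM hη hK hH hX0 hX
  have u8 := r8 hn hnM hCs hnC hE h0 hσ hS hy hb
  have us := rsum (hn.trans hnM) hCd hη hE hK h0 hS hy hH hb hc
  refine le_trans ?_ us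
  have a1 := abs_add_le (B' * G1 + 2 * B * G2 + 4 * E1' * G3 + 4 * e₁ * G4 +
    4 * E2' * (α₁ + α₂) + A' * G6 + A * G7) (2 * n * E1' * (α₁ + α₂))
  have a2 := abs_add_le (B' * G1 + 2 * B * G2 + 4 * E1' * G3 + 4 * e₁ * G4 +
    4 * E2' * (α₁ + α₂) + A' * G6) (A * G7)
  have a3 := abs_add_le (B' * G1 + 2 * B * G2 + 4 * E1' * G3 + 4 * e₁ * G4 +
    4 * E2' * (α₁ + α₂)) (A' * G6)
  have a4 := abs_add_le (B' * G1 + 2 * B * G2 + 4 * E1' * G3 + 4 * e₁ * G4)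
    (4 * E2' * (α₁ + α₂))
  have a5 := abs_add_le (B' * G1 + 2 * B * G2 + 4 * E1' * G3) (4 * e₁ * G4)
  have a6 := abs_add_le (B' * G1 + 2 * B * G2) (4 * E1' * G3)
  have a7 := abs_add_le (B' * G1) (2 * B * G2)
  linarith

end Vale.Agent.P088.R2.H321.ZI
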