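import Vale.Agent.P088.R2.H321.ZI.PU2
import Vale.Agent.P088.R2.H321.ZI.PU5

/-!
# Zone I: the third order terms of the curved weight
-/

open Set Finset
open scoped ContDiff

noncomputable section

namespace Vale.Agent.P088.R2.H321.ZI

open Vale.Agent.P088.LR Vale.Agent.P088.HY
open Vale.Agent.P088.R2.H644 Vale.Agent.P088.R2.H205.CP

variable {n : ℕ} {u : VV n → ℝ} {w : Fn} {z : VV n}

/-- The numbers at a point. -/
structure PN (Cs Cd : ℝ) (u : VV n → ℝ) (w : Fn) (z : VV n) : Prop where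
  Cs0 : 0 ≤ Cs
  Cd0 : 0 ≤ Cd
  N0 : 0 < w.φ₁ (u z)
  K1 : 1 ≤ w.φ₂ (u z)
  KE : w.φ₂ (u z) ≤ Real.exp (u z)
  tK : Real.exp (u z) * qq z ≤ w.φ₂ (u z)
  tN : Real.exp (u z) * qq z ≤ w.φ₁ (u z)
  d3 : |w.φ₃ (u z)| ≤ Cd * w.φ₂ (u z)
  q1 : qq z ≤ 1
  qC : Cs * qq z ≤ 1 / 2
  P0 : 0 ≤ w.Ψ (qq z)
  P0' : w.Ψ (qq z) ≤ qq z
  P1 : |w.Ψ₁ (qq z) - 1 / 2| ≤ Cs * qq z
  P2 : |w.Ψ₂ (qq z)| ≤ Cs
  P3 : |w.Ψ₃ (qq z)| ≤ Cs

/-- The derivatives of `u` at a point. -/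
structure PU (η ρ N K : ℝ) (u : VV n → ℝ) (z : VV n) : Prop where
  ρ0 : 0 ≤ ρ
  η1 : η ≤ 1
  ρη : ρ ≤ η
  Nρ : N * ρ ≤ η * K
  ga : ∀ i, |dx i u z| ≤ 2
  gb : ∀ i, |dy i u z| ≤ 2
  gd : ∀ i, |dx i u z - dy i u z| ≤ η
  xx : ∀ i j, |dx i (dx j u) z| ≤ ρ
  xy : ∀ i j, |dx i (dy j u) z| ≤ ρ
  yx : ∀ i j, |dy i (dx j u) z| ≤ ρ
  yy : ∀ i j, |dy i (dy j u) z| ≤ ρ
  xxx : ∀ i j, |dx i (dx j (dx j u)) z| ≤ ρ
  yxx : ∀ i j, |dy i (dx j (dx j u)) z| ≤ ρ
  xyy : ∀ i j, |dx i (dy j (dy j u)) z| ≤ ρ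
  yyy : ∀ i j, |dy i (dy j (dy j u)) z| ≤ ρ

/-! ### Sums -/

theorem sum_bd (f : Fin n → ℝ) {M : ℝ} (h : ∀ i, |f i| ≤ M) : |∑ i, f i| ≤ n * M := by
  refine (abs_sum_le_sum_abs _ _).trans ?_
  refine (sum_le_sum fun i _ => h i).trans ?_
  simp

/-- `∑ |U_j| + ∑ |V_j|`. -/
def Hv (v : VV n) : ℝ := ∑ j, |v.1 j| + ∑ j, |v.2 j|

theorem Hv0 (v : VV n) : 0 ≤ Hv v :=
  add_nonneg (sum_nonneg fun _ _ => abs_nonneg _) (sum_nonneg fun _ _ => abs_nonneg _)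

theorem Hv_sq (v : VV n) : Hv v ^ 2 ≤ 2 * n * (s2 v.1 + s2 v.2) := by
  have h : ∀ U : V n, (∑ j, |U j|) ^ 2 ≤ n * s2 U := fun U => by
    have := sq_sum_le_card_mul_sum_sq (s := (univ : Finset (Fin n))) (f := fun j => |U j|)
    simpa [sq_abs, s2] using this
  have h1 := h v.1
  have h2 := h v.2
  unfold Hv
  nlinarith [sq_nonneg ((∑ j, |v.1 j|) - ∑ j, |v.2 j|)]

/-- A directional derivative from the coordinate derivatives. -/
theorem dd_bd (f : VV n → ℝ) (v z : VV n) {ρ : ℝ} (hx : ∀ i, |dx i f z| ≤ ρ)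
    (hy : ∀ i, |dy i f z| ≤ ρ) : |dd v f z| ≤ ρ * Hv v := by
  rw [dd_split]
  refine (abs_add_le _ _).trans ?_
  have h : ∀ (U F : Fin n → ℝ), (∀ i, |F i| ≤ ρ) → |∑ j, U j * F j| ≤ ρ * ∑ j, |U j| := by
    intro U F hF
    refine (abs_sum_le_sum_abs _ _).trans ?_
    rw [mul_sum]
    refine sum_le_sum fun i _ => ?_
    rw [abs_mul, mul_comm]
    exact mul_le_mul_of_nonneg_right (hF i) (abs_nonneg _)
  have h1 := h v.1 (fun j => dx j f z) hx
  have h2 := h v.2 (fun j => dy j f z) hy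
  unfold Hv
  rw [mul_add]
  exact add_le_add h1 h2

theorem qd_bd (v z : VV n) : |qd v z| ≤ √(qq z) * √(s2 (v.1 - v.2)) := by
  have h := sum_mul_sq_le_sq_mul_sq univ (fun j => qv j z) fun j => v.1 j - v.2 j
  rw [← Real.sqrt_mul (qq_nonneg z)]
  refine Real.abs_le_sqrt ?_
  exact h

theorem qv_bd (i : Fin n) (z : VV n) : |qv i z| ≤ √(qq z) := by
  refine Real.abs_le_sqrt ?_
  rw [qq_eq]
  exact single_le_sum (f := fun j => qv j z ^ 2) (fun j _ => sq_nonneg _) (mem_univ i)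

theorem Y_bd (i : Fin n) (v : VV n) : |v.1 i - v.2 i| ≤ √(s2 (v.1 - v.2)) := by
  refine Real.abs_le_sqrt ?_
  exact single_le_sum (f := fun j => (v.1 - v.2) j ^ 2) (fun j _ => sq_nonneg _) (mem_univ i)

theorem ab_bd {a b β γ η : ℝ} (ha : |a| ≤ 2) (hb : |b| ≤ 2) (hd : |a - b| ≤ η) :
    |(β + γ) * a - (β - γ) * b| ≤ 4 * |γ| + η * |β| := by
  have e : (β + γ) * a - (β - γ) * b = γ * (a + b) + β * (a - b) := by ring
  rw [e]
  refine (abs_add_le _ _).trans ?_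
  rw [abs_mul, abs_mul, mul_comm 4, mul_comm η]
  have h : |a + b| ≤ 4 := (abs_add_le _ _).trans (by linarith)
  exact add_le_add (mul_le_mul_of_nonneg_left h (abs_nonneg _))
    (mul_le_mul_of_nonneg_left hd (abs_nonneg _))

/-- `|α₁ p + α₂ q| ≤ M (|α₁| + |α₂|)`. -/
theorem co_bd {p q M a b : ℝ} (hp : |p| ≤ M) (hq : |q| ≤ M) : |a * p + b * q| ≤
    M * (|a| + |b|) := by
  refine (abs_add_le _ _).trans ?_
  rw [abs_mul, abs_mul]
  have h1 := mul_le_mul_of_nonneg_left hp (abs_nonneg a)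
  have h2 := mul_le_mul_of_nonneg_left hq (abs_nonneg b)
  linarith

theorem co_bd' {p q M a b : ℝ} (hp : |p| ≤ M) (hq : |q| ≤ M) : |a * p - b * q| ≤
    M * (|a| + |b|) := by
  have := co_bd (a := a) (b := -b) hp hq
  rwa [abs_neg, neg_mul, ← sub_eq_add_neg] at this

/-! ### The coefficients -/

section coef

variable {Cs Cd : ℝ} (h : PN Cs Cd u w z)

include h

theorem PN.K0 : 0 < w.φ₂ (u z) := by linarith [h.K1]

theorem PN.ep : 0 ≤ Real.exp (u z) * w.Ψ (qq z) := mul_nonneg (Real.exp_pos _).le h.P0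

theorem PN.eq : Real.exp (u z) * w.Ψ (qq z) ≤ Real.exp (u z) * qq z :=
  mul_le_mul_of_nonneg_left h.P0' (Real.exp_pos _).le

theorem PN.B_le : |Bb u w z| ≤ 2 * w.φ₂ (u z) := by
  have h1 := h.ep
  have h2 := h.eq
  have h3 := h.tK
  have h4 := h.K0
  unfold Bb
  rw [abs_of_nonneg (by linarith)]
  linarith

theorem PN.A_le : |Aa u w z| ≤ 2 * w.φ₁ (u z) := by
  have h1 := h.ep
  have h2 := h.eq
  have h3 := h.tN
  have h4 := h.N0
  unfold Aa
  rw [abs_of_nonneg (by linarith)]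
  linarith

theorem PN.e1_le : |e1 u w z| ≤ Real.exp (u z) := by
  unfold e1
  rw [abs_mul, abs_of_pos (Real.exp_pos _)]
  have h1 := abs_le.1 (h.P1.trans h.qC)
  have : |w.Ψ₁ (qq z)| ≤ 1 := abs_le.2 ⟨by linarith, by linarith⟩
  nlinarith [Real.exp_pos (u z)]

theorem PN.e2_le : |e2 u w z| ≤ Cs * Real.exp (u z) := by
  unfold e2
  rw [abs_mul, abs_of_pos (Real.exp_pos _), mul_comm]
  exact mul_le_mul_of_nonneg_right h.P2 (Real.exp_pos _).le

theorem PN.e3_le : |e3 u w z| ≤ Cs * Real.exp (u z) := by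
  unfold e3
  rw [abs_mul, abs_of_pos (Real.exp_pos _), mul_comm]
  exact mul_le_mul_of_nonneg_right h.P3 (Real.exp_pos _).le

/-- `|p s + 2 q t| ≤ M |s| + 2 M' σ y`. -/
theorem lin_bd {p q s t M M' r : ℝ} (hp : |p| ≤ M) (hq : |q| ≤ M') (ht : |t| ≤ r) :
    |p * s + 2 * q * t| ≤ M * |s| + 2 * M' * r := by
  clear h
  refine (abs_add_le _ _).trans ?_
  rw [abs_mul, abs_mul, abs_mul, abs_of_pos (show (0 : ℝ) < 2 by norm_num)]
  have h1 := mul_le_mul_of_nonneg_right hp (abs_nonneg s)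
  have h2 : |q| * |t| ≤ M' * r := mul_le_mul hq ht (abs_nonneg _) ((abs_nonneg q).trans hq)
  linarith

theorem PN.B'_le (v : VV n) : |B' u w v z| ≤ (Cd + 1) * w.φ₂ (u z) * |dd v u z| +
    2 * Real.exp (u z) * (√(qq z) * √(s2 (v.1 - v.2))) := by
  refine lin_bd h ?_ h.e1_le (qd_bd v z)
  refine (abs_add_le _ _).trans ?_
  rw [abs_of_nonneg h.ep]
  linarith [h.d3, h.eq, h.tK]

theorem PN.A'_le (v : VV n) : |A' u w v z| ≤ 2 * w.φ₂ (u z) * |dd v u z| +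
    2 * Real.exp (u z) * (√(qq z) * √(s2 (v.1 - v.2))) :=
  lin_bd h h.B_le h.e1_le (qd_bd v z)

theorem PN.E1'_le (v : VV n) : |E1' u w v z| ≤ Real.exp (u z) * |dd v u z| +
    2 * Cs * Real.exp (u z) * (√(qq z) * √(s2 (v.1 - v.2))) := by
  have := lin_bd h (s := dd v u z) h.e1_le h.e2_le (qd_bd v z)
  unfold E1'
  linarith

theorem PN.E2'_le (v : VV n) : |E2' u w v z * qq z + e2 u w z * (2 * qd v z)| ≤
    Cs * Real.exp (u z) * |dd v u z| +
    4 * Cs * Real.exp (u z) * (√(qq z) * √(s2 (v.1 - v.2))) := by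
  have h1 := lin_bd h (s := dd v u z) h.e2_le h.e3_le (qd_bd v z)
  have h2 := mul_le_mul h.e2_le (qd_bd v z) (abs_nonneg _)
    (mul_nonneg h.Cs0 (Real.exp_pos _).le)
  refine (abs_add_le _ _).trans ?_
  rw [abs_mul, abs_mul (e2 u w z), abs_mul 2, abs_of_pos (show (0 : ℝ) < 2 by norm_num),
    abs_of_nonneg (qq_nonneg z)]
  have h3 : |E2' u w v z| * qq z ≤ |E2' u w v z| * 1 :=
    mul_le_mul_of_nonneg_left h.q1 (abs_nonneg _)
  have h4 : |E2' u w v z| ≤ Cs * Real.exp (u z) * |dd v u z| +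
      2 * (Cs * Real.exp (u z)) * (√(qq z) * √(s2 (v.1 - v.2))) := h1
  linarith

end coef

/-! ### The third order terms -/

theorem d_lx (hu : ContDiff ℝ ∞ u) (i : Fin n) (z : VV n) :
    dx i (lx u) z = ∑ j, dx i (dx j (dx j u)) z := by
  unfold lx
  rw [dx_eq, dd_sum univ fun j _ => dfb (cdx (cdx hu j) j) z]
  rfl

theorem dy_lx (hu : ContDiff ℝ ∞ u) (i : Fin n) (z : VV n) :
    dy i (lx u) z = ∑ j, dy i (dx j (dx j u)) z := by
  unfold lx
  rw [dy_eq, dd_sum univ fun j _ => dfb (cdx (cdx hu j) j) z]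
  rfl

theorem dx_ly (hu : ContDiff ℝ ∞ u) (i : Fin n) (z : VV n) :
    dx i (ly u) z = ∑ j, dx i (dy j (dy j u)) z := by
  unfold ly
  rw [dx_eq, dd_sum univ fun j _ => dfb (cdy (cdy hu j) j) z]
  rfl

theorem dy_ly (hu : ContDiff ℝ ∞ u) (i : Fin n) (z : VV n) :
    dy i (ly u) z = ∑ j, dy i (dy j (dy j u)) z := by
  unfold ly
  rw [dy_eq, dd_sum univ fun j _ => dfb (cdy (cdy hu j) j) z]
  rfl

/-- **The third order terms.** -/
theorem third_le {Cs Cd η ρ : ℝ} (hu : ContDiff ℝ ∞ u) (h : PN Cs Cd u w z)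
    (g : PU η ρ (w.φ₁ (u z)) (w.φ₂ (u z)) u z) (v : VV n) {x y : ℝ}
    {M : ℝ} (hnM : (n : ℝ) ≤ M) (hCM : Cs ≤ M) (hnC : n * Cs ≤ M) :
    |x * LX' u w v z + y * LY' u w v z| ≤ 72 * M * Gt Cd η (Real.exp (u z)) (w.φ₂ (u z))
      (√(qq z)) |dd v u z| (√(s2 (v.1 - v.2))) (Hv v) |(x + y) / 2| |(x - y) / 2| := by
  have hn : (0 : ℝ) ≤ n := Nat.cast_nonneg n
  have hη : 0 ≤ η := g.ρ0.trans g.ρη
  have hH := Hv0 v
  have hσ1 : √(qq z) ≤ 1 := by
    rw [show (1 : ℝ) = √1 by simp]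
    exact Real.sqrt_le_sqrt h.q1
  have dax : ∀ i, |dd v (dx i u) z| ≤ ρ * Hv v := fun i =>
    dd_bd _ v z (fun j => g.xx j i) fun j => g.yx j i
  have day : ∀ i, |dd v (dy i u) z| ≤ ρ * Hv v := fun i =>
    dd_bd _ v z (fun j => g.xy j i) fun j => g.yy j i
  have hρH : 0 ≤ ρ * Hv v := mul_nonneg g.ρ0 hH
  have abD : ∀ i, |x * dx i u z - y * dy i u z| ≤ 4 * |(x - y) / 2| + η * |(x + y) / 2| := by
    intro i
    have := ab_bd (β := (x + y) / 2) (γ := (x - y) / 2) (g.ga i) (g.gb i) (g.gd i)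
    rwa [show (x + y) / 2 + (x - y) / 2 = x by ring, show (x + y) / 2 - (x - y) / 2 = y by ring]
      at this
  -- first sums
  have sa : |∑ i, dx i u z * dx i u z| ≤ 4 * n := by
    refine (sum_bd _ (M := 4) fun i => ?_).trans (by linarith)
    rw [abs_mul]
    have := g.ga i
    nlinarith [abs_nonneg (dx i u z)]
  have sb : |∑ i, dy i u z * dy i u z| ≤ 4 * n := by
    refine (sum_bd _ (M := 4) fun i => ?_).trans (by linarith)
    rw [abs_mul]
    have := g.gb i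
    nlinarith [abs_nonneg (dy i u z)]
  have pa : |∑ i, dx i u z * dd v (dx i u) z| ≤ 2 * n * η * Hv v := by
    refine (sum_bd _ (M := 2 * (ρ * Hv v)) fun i => ?_).trans ?_
    · rw [abs_mul]
      exact mul_le_mul (g.ga i) (dax i) (abs_nonneg _) (by norm_num)
    · have := mul_le_mul_of_nonneg_right g.ρη hH
      nlinarith
  have pb : |∑ i, dy i u z * dd v (dy i u) z| ≤ 2 * n * η * Hv v := by
    refine (sum_bd _ (M := 2 * (ρ * Hv v)) fun i => ?_).trans ?_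
    · rw [abs_mul]
      exact mul_le_mul (g.gb i) (day i) (abs_nonneg _) (by norm_num)
    · have := mul_le_mul_of_nonneg_right g.ρη hH
      nlinarith
  have lxb : |lx u z| ≤ n * ρ := sum_bd _ fun i => g.xx i i
  have lyb : |ly u z| ≤ n * ρ := sum_bd _ fun i => g.yy i i
  have lxd : |dd v (lx u) z| ≤ n * ρ * Hv v := by
    refine dd_bd _ v z (fun i => ?_) fun i => ?_
    · rw [d_lx hu]
      exact sum_bd _ fun j => g.xxx i j
    · rw [dy_lx hu]
      exact sum_bd _ fun j => g.yxx i j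
  have lyd : |dd v (ly u) z| ≤ n * ρ * Hv v := by
    refine dd_bd _ v z (fun i => ?_) fun i => ?_
    · rw [dx_ly hu]
      exact sum_bd _ fun j => g.xyy i j
    · rw [dy_ly hu]
      exact sum_bd _ fun j => g.yyy i j
  -- the number lemma
  have T := T_num (β := (x + y) / 2) (γ := (x - y) / 2) (α₁ := x) (α₂ := y) hn hnM h.Cs0 hCM hnC
    h.Cd0 hη g.η1 (Real.exp_pos (u z)).le h.K0.le (Real.sqrt_nonneg _) hσ1
    (Real.sqrt_nonneg (s2 (v.1 - v.2))) hH (by ring) (by ring) (h.B'_le v) h.B_le (h.E1'_le v)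
    h.e1_le (h.E2'_le v) (h.A'_le v) (A := Aa u w z)
    (G1 := x * (∑ i, dx i u z * dx i u z) + y * ∑ i, dy i u z * dy i u z)
    (G2 := x * (∑ i, dx i u z * dd v (dx i u) z) + y * ∑ i, dy i u z * dd v (dy i u) z)
    (G3 := x * (∑ i, qv i z * dx i u z) - y * ∑ i, qv i z * dy i u z)
    (G4 := x * (∑ i, ((v.1 i - v.2 i) * dx i u z + qv i z * dd v (dx i u) z)) -
      y * ∑ i, ((v.1 i - v.2 i) * dy i u z + qv i z * dd v (dy i u) z))
    (G6 := x * lx u z + y * ly u z) (G7 := x * dd v (lx u) z + y * dd v (ly u) z)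
    (co_bd sa sb) (co_bd pa pb) ?_ ?_ ?_ ?_
  · refine le_trans (le_of_eq ?_) T
    congr 1
    unfold LX' LY'
    ring
  · have e : x * (∑ i, qv i z * dx i u z) - y * ∑ i, qv i z * dy i u z =
        ∑ i, qv i z * (x * dx i u z - y * dy i u z) := by
      rw [mul_sum, mul_sum, ← sum_sub_distrib]
      exact sum_congr rfl fun i _ => by ring
    rw [e, mul_assoc]
    refine sum_bd _ fun i => ?_
    rw [abs_mul]
    exact mul_le_mul (qv_bd i z) (abD i) (abs_nonneg _) (Real.sqrt_nonneg _)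
  · have e : x * (∑ i, ((v.1 i - v.2 i) * dx i u z + qv i z * dd v (dx i u) z)) -
        y * ∑ i, ((v.1 i - v.2 i) * dy i u z + qv i z * dd v (dy i u) z) =
        (∑ i, (v.1 i - v.2 i) * (x * dx i u z - y * dy i u z)) +
          ∑ i, qv i z * (x * dd v (dx i u) z - y * dd v (dy i u) z) := by
      rw [mul_sum, mul_sum, ← sum_sub_distrib, ← sum_add_distrib]
      exact sum_congr rfl fun i _ => by ring
    rw [e]
    refine (abs_add_le _ _).trans (add_le_add ?_ ?_)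
    · rw [mul_assoc]
      refine sum_bd _ fun i => ?_
      rw [abs_mul]
      exact mul_le_mul (Y_bd i v) (abD i) (abs_nonneg _) (Real.sqrt_nonneg _)
    · have e2 : (n : ℝ) * √(qq z) * η * Hv v * (|x| + |y|) =
          n * (√(qq z) * (η * Hv v * (|x| + |y|))) := by ring
      rw [e2]
      refine sum_bd _ fun i => ?_
      rw [abs_mul]
      refine mul_le_mul (qv_bd i z) ?_ (abs_nonneg _) (Real.sqrt_nonneg _)
      refine (co_bd' (dax i) (day i)).trans ?_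
      exact mul_le_mul_of_nonneg_right (mul_le_mul_of_nonneg_right g.ρη hH) (by positivity)
  · refine (co_bd lxb lyb).trans ?_
    exact mul_le_mul_of_nonneg_right (mul_le_mul_of_nonneg_left g.ρη hn) (by positivity)
  · rw [abs_mul]
    have h1 := co_bd (a := x) (b := y) lxd lyd
    have h2 := mul_le_mul h.A_le h1 (abs_nonneg _) (by linarith [h.N0])
    refine h2.trans ?_
    have h3 := mul_le_mul_of_nonneg_right g.Nρ
      (show 0 ≤ 2 * n * Hv v * (|x| + |y|) by positivity)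
    linarith

end Vale.Agent.P088.R2.H321.ZI
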