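import Mathlib

/-!
# Zone I: the numbers of the pointwise inequality (curved level)
-/

noncomputable section

namespace Vale.Agent.P088.R2.H321.ZI

/-- Young. -/
theorem yg {θ u v : ℝ} (hθ : 0 < θ) : u * v ≤ θ * u ^ 2 + v ^ 2 / (4 * θ) := by
  have h : 0 ≤ (2 * θ * u - v) ^ 2 / (4 * θ) := by positivity
  have e : (2 * θ * u - v) ^ 2 / (4 * θ) = θ * u ^ 2 - u * v + v ^ 2 / (4 * θ) := by
    field_simp
    ring
  linarith

/-- `E s b`. -/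
theorem y1 {θ L E K s b : ℝ} (hθ : 0 < θ) (hK : 0 < K) (h : L ^ 2 ≤ 4 * θ ^ 2 * K) :
    L * (E * s * b) ≤ θ * (K * s ^ 2) + θ * (E ^ 2 * b ^ 2) := by
  have h1 := yg (θ := θ * K) (u := s) (v := L * E * b) (by positivity)
  have h2 : (L * E * b) ^ 2 / (4 * (θ * K)) ≤ θ * (E ^ 2 * b ^ 2) := by
    rw [div_le_iff₀ (by positivity)]
    have := mul_le_mul_of_nonneg_right h (show 0 ≤ E ^ 2 * b ^ 2 by positivity)
    linarith
  linarith

/-- `E y b`. -/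
theorem y2 {θ L E y b : ℝ} (hθ : 0 < θ) (hE : 0 < E) (h : L ^ 2 ≤ 4 * θ ^ 2 * E) :
    L * (E * y * b) ≤ θ * (E * y ^ 2) + θ * (E ^ 2 * b ^ 2) := y1 hθ hE h

/-- `E y c`. -/
theorem y3 {θ L E K y c : ℝ} (hθ : 0 < θ) (hE : 0 < E) (hK : 1 ≤ K) :
    L * (E * y * c) ≤ θ * (E * y ^ 2) + L ^ 2 / (4 * θ) * (E * K * c ^ 2) := by
  have h1 := yg (θ := θ * E) (u := y) (v := L * E * c) (by positivity)
  have h2 : (L * E * c) ^ 2 / (4 * (θ * E)) ≤ L ^ 2 / (4 * θ) * (E * K * c ^ 2) := by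
    have e : (L * E * c) ^ 2 / (4 * (θ * E)) = L ^ 2 / (4 * θ) * (E * 1 * c ^ 2) := by
      field_simp
    rw [e]
    gcongr
  linarith

/-- `(Cd + 1) K s b`, `(Cd + 1) K s c`. -/
theorem y4 {θ L E K s b : ℝ} (hθ : 0 < θ) (hK : 0 < K) (hKE : K ≤ E)
    (h : L ^ 2 ≤ 4 * θ ^ 2 * E) :
    L * (K * s * b) ≤ θ * (K * s ^ 2) + θ * (E ^ 2 * b ^ 2) := by
  have h1 := yg (θ := θ * K) (u := s) (v := L * K * b) (by positivity)
  have h2 : (L * K * b) ^ 2 / (4 * (θ * K)) ≤ θ * (E ^ 2 * b ^ 2) := by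
    have e : (L * K * b) ^ 2 / (4 * (θ * K)) = L ^ 2 * (K * b ^ 2) / (4 * θ) := by
      field_simp
    rw [e, div_le_iff₀ (by positivity)]
    have hE : 0 < E := hK.trans_le hKE
    have a1 := mul_le_mul_of_nonneg_right h (show 0 ≤ K * b ^ 2 by positivity)
    have a2 : 4 * θ ^ 2 * E * (K * b ^ 2) ≤ 4 * θ ^ 2 * E * (E * b ^ 2) := by gcongr
    linarith
  linarith

theorem y5 {θ L E K s c : ℝ} (hθ : 0 < θ) (hK : 0 < K) (h : L ^ 2 ≤ 4 * θ * E) :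
    L * (K * s * c) ≤ θ * (K * s ^ 2) + E * K * c ^ 2 := by
  have h1 := yg (θ := θ * K) (u := s) (v := L * K * c) (by positivity)
  have h2 : (L * K * c) ^ 2 / (4 * (θ * K)) ≤ E * K * c ^ 2 := by
    have e : (L * K * c) ^ 2 / (4 * (θ * K)) = L ^ 2 * (K * c ^ 2) / (4 * θ) := by
      field_simp
    rw [e, div_le_iff₀ (by positivity)]
    have a1 := mul_le_mul_of_nonneg_right h (show 0 ≤ K * c ^ 2 by positivity)
    linarith
  linarith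

/-- `E σ s c`. -/
theorem y6 {θ L E K σ s c : ℝ} (hθ : 0 < θ) (hE : 0 < E) (hK : 1 ≤ K) (h : E * σ ^ 2 ≤ K) :
    L * (E * σ * s * c) ≤ θ * (K * s ^ 2) + L ^ 2 / (4 * θ) * (E * K * c ^ 2) := by
  have hK0 : 0 < K := by linarith
  have h1 := yg (θ := θ * K) (u := s) (v := L * (E * σ) * c) (by positivity)
  have h2 : (L * (E * σ) * c) ^ 2 / (4 * (θ * K)) ≤ L ^ 2 / (4 * θ) * (E * K * c ^ 2) := by
    have e : (L * (E * σ) * c) ^ 2 / (4 * (θ * K)) =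
        L ^ 2 / (4 * θ) * (E * (E * σ ^ 2 / K) * c ^ 2) := by
      field_simp
    rw [e]
    have : E * σ ^ 2 / K ≤ K := by
      rw [div_le_iff₀ hK0]
      nlinarith
    gcongr
  linarith

/-- `η K H b`. -/
theorem y7 {θ η L E K H b : ℝ} (hη : 0 ≤ η) (hK : 0 < K) (hKE : K ≤ E)
    (h : η * L ^ 2 ≤ 4 * θ) :
    L * (η * K * H * b) ≤ η * H ^ 2 + θ * (E ^ 2 * b ^ 2) := by
  have h1 := yg (θ := 1) (u := H) (v := L * K * b) (by norm_num)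
  have h2 := mul_le_mul_of_nonneg_left h1 hη
  have h3 : η * ((L * K * b) ^ 2 / (4 * 1)) ≤ θ * (E ^ 2 * b ^ 2) := by
    have hE : 0 < E := hK.trans_le hKE
    have a1 := mul_le_mul_of_nonneg_right h (show 0 ≤ K ^ 2 * b ^ 2 by positivity)
    have a0 : 0 ≤ 4 * θ := le_trans (by positivity) h
    have a2 : 4 * θ * (K ^ 2 * b ^ 2) ≤ 4 * θ * (E ^ 2 * b ^ 2) := by gcongr
    have e : η * ((L * K * b) ^ 2 / (4 * 1)) = η * L ^ 2 * (K ^ 2 * b ^ 2) / 4 := by ring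
    rw [e]
    linarith
  linarith

theorem y8 {η L E K H c : ℝ} (hη : 0 ≤ η) (hK : 0 < K) (hKE : K ≤ E)
    (h : η * L ^ 2 ≤ 4) :
    L * (η * K * H * c) ≤ η * H ^ 2 + E * K * c ^ 2 := by
  have h1 := yg (θ := 1) (u := H) (v := L * K * c) (by norm_num)
  have h2 := mul_le_mul_of_nonneg_left h1 hη
  have h3 : η * ((L * K * c) ^ 2 / (4 * 1)) ≤ E * K * c ^ 2 := by
    have a1 := mul_le_mul_of_nonneg_right h (show 0 ≤ K ^ 2 * c ^ 2 by positivity)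
    have a2 : K ^ 2 * c ^ 2 ≤ E * K * c ^ 2 := by
      have : K ^ 2 ≤ E * K := by nlinarith
      gcongr
    have e : η * ((L * K * c) ^ 2 / (4 * 1)) = η * L ^ 2 * (K ^ 2 * c ^ 2) / 4 := by ring
    rw [e]
    linarith
  linarith

/-- `η E σ H b`. -/
theorem y9 {θ η L E K σ H b : ℝ} (hη : 0 ≤ η) (hE : 0 < E) (hKE : K ≤ E)
    (hσ : E * σ ^ 2 ≤ K) (h : η * L ^ 2 ≤ 4 * θ) :
    L * (η * (E * σ) * H * b) ≤ η * H ^ 2 + θ * (E ^ 2 * b ^ 2) := by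
  have h1 := yg (θ := 1) (u := H) (v := L * (E * σ) * b) (by norm_num)
  have h2 := mul_le_mul_of_nonneg_left h1 hη
  have h3 : η * ((L * (E * σ) * b) ^ 2 / (4 * 1)) ≤ θ * (E ^ 2 * b ^ 2) := by
    have a1 := mul_le_mul_of_nonneg_right h (show 0 ≤ E * (E * σ ^ 2) * b ^ 2 by positivity)
    have a0 : 0 ≤ 4 * θ := le_trans (by positivity) h
    have a3 : E * σ ^ 2 ≤ E := hσ.trans hKE
    have a2 : 4 * θ * (E * (E * σ ^ 2) * b ^ 2) ≤ 4 * θ * (E * E * b ^ 2) := by gcongr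
    have e : η * ((L * (E * σ) * b) ^ 2 / (4 * 1)) =
        η * L ^ 2 * (E * (E * σ ^ 2) * b ^ 2) / 4 := by ring
    rw [e]
    linarith
  linarith

theorem y10 {η L E K σ H c : ℝ} (hη : 0 ≤ η) (hE : 0 < E)
    (hσ : E * σ ^ 2 ≤ K) (h : η * L ^ 2 ≤ 4) :
    L * (η * (E * σ) * H * c) ≤ η * H ^ 2 + E * K * c ^ 2 := by
  have h1 := yg (θ := 1) (u := H) (v := L * (E * σ) * c) (by norm_num)
  have h2 := mul_le_mul_of_nonneg_left h1 hη
  have h3 : η * ((L * (E * σ) * c) ^ 2 / (4 * 1)) ≤ E * K * c ^ 2 := by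
    have a1 := mul_le_mul_of_nonneg_right h (show 0 ≤ E * (E * σ ^ 2) * c ^ 2 by positivity)
    have a2 : E * (E * σ ^ 2) * c ^ 2 ≤ E * K * c ^ 2 := by gcongr
    have e : η * ((L * (E * σ) * c) ^ 2 / (4 * 1)) =
        η * L ^ 2 * (E * (E * σ ^ 2) * c ^ 2) / 4 := by ring
    rw [e]
    linarith
  linarith

/-- The bracket of the third order terms. -/
def Gt (Cd η E K σ s y H b c : ℝ) : ℝ :=
  E * s * b + E * y * b + E * y * c + (Cd + 1) * (K * s * b) + (Cd + 1) * (K * s * c) +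
    E * σ * s * c + η * K * H * b + η * K * H * c + η * (E * σ) * H * b + η * (E * σ) * H * c

theorem Gt_le {θ L Cd η E K σ s y H b c : ℝ} (hθ : 0 < θ) (hθ1 : θ ≤ 1) (hCd : 0 ≤ Cd)
    (hη : 0 ≤ η) (hK1 : 1 ≤ K) (hKE : K ≤ E) (hσ : E * σ ^ 2 ≤ K) (h1 : L ^ 2 ≤ 4 * θ ^ 2 * K)
    (h2 : (L * (Cd + 1)) ^ 2 ≤ 4 * θ ^ 2 * E) (h3 : η * L ^ 2 ≤ 4 * θ) :
    L * Gt Cd η E K σ s y H b c ≤ 4 * θ * (K * s ^ 2) + 2 * θ * (E * y ^ 2) +
      5 * θ * (E ^ 2 * b ^ 2) + (L ^ 2 / (2 * θ) + 3) * (E * K * c ^ 2) + 4 * (η * H ^ 2) := by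
  have hK : 0 < K := by linarith
  have hE : 0 < E := by linarith
  have hL : L ^ 2 ≤ 4 * θ ^ 2 * E := h1.trans (by gcongr)
  have h4 : η * L ^ 2 ≤ 4 := h3.trans (by linarith)
  have h5 : (L * (Cd + 1)) ^ 2 ≤ 4 * θ * E := h2.trans (by
    have : θ ^ 2 ≤ θ := by nlinarith
    gcongr)
  have a1 := y1 (E := E) (s := s) (b := b) hθ hK h1
  have a2 := y2 (y := y) (b := b) hθ hE hL
  have a3 := y3 (L := L) (y := y) (c := c) hθ hE hK1
  have a4 := y4 (s := s) (b := b) hθ hK hKE h2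
  have a5 := y5 (s := s) (c := c) hθ hK h5
  have a6 := y6 (L := L) (s := s) (c := c) hθ hE hK1 hσ
  have a7 := y7 (H := H) (b := b) hη hK hKE h3
  have a8 := y8 (H := H) (c := c) hη hK hKE h4
  have a9 := y9 (H := H) (b := b) hη hE hKE hσ h3
  have a10 := y10 (H := H) (c := c) hη hE hσ h4
  have e : L ^ 2 / (4 * θ) * (E * K * c ^ 2) + L ^ 2 / (4 * θ) * (E * K * c ^ 2) =
      L ^ 2 / (2 * θ) * (E * K * c ^ 2) := by
    field_simp
    ring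
  unfold Gt
  linarith

end Vale.Agent.P088.R2.H321.ZI
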