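import Vale.Agent.P088.R2.H321.ZI.PU3

/-!
# Zone I: the zero order squares of the curved weight
-/

open Set Finset
open scoped ContDiff

noncomputable section

namespace Vale.Agent.P088.R2.H321.ZI

open Vale.Agent.P088.LR Vale.Agent.P088.HY
open Vale.Agent.P088.R2.H644 Vale.Agent.P088.R2.H205.CP

variable {n : ℕ} {u : VV n → ℝ} {w : Fn} {z : VV n}

theorem mat_sq (e : ℝ) (R : Fin n → Fin n → ℝ) :
    ∑ i, ∑ l, (e * (if i = l then 1 else 0) + R i l) ^ 2 =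
      n * e ^ 2 + 2 * e * (∑ i, R i i) + ∑ i, ∑ l, R i l ^ 2 := by
  have h : ∀ i l : Fin n, (e * (if i = l then 1 else 0) + R i l) ^ 2 =
      (if i = l then e ^ 2 + 2 * e * R i l else 0) + R i l ^ 2 := by
    intro i l
    split_ifs <;> ring
  simp only [h, sum_add_distrib, Finset.sum_ite_eq, Finset.mem_univ, if_true,
    Finset.sum_const, Finset.card_univ, Fintype.card_fin, nsmul_eq_mul, ← mul_sum]

/-- The trace part. -/
def Tr (u : VV n → ℝ) (w : Fn) (x y : ℝ) (z : VV n) : ℝ :=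
  ∑ i, (Bb u w z * (x * dx i u z - y * dy i u z) ^ 2 +
    4 * e1 u w z * ((x + y) * (qv i z * (x * dx i u z - y * dy i u z))) +
    4 * e2 u w z * ((x + y) ^ 2 * qv i z ^ 2) +
    Aa u w z * (dx i (dx i u) z * x ^ 2 - 2 * dx i (dy i u) z * (x * y) +
      dy i (dy i u) z * y ^ 2))

/-- The squares of the rest. -/
def Rs (u : VV n → ℝ) (w : Fn) (x y : ℝ) (z : VV n) : ℝ :=
  ∑ i, ∑ l, (Rxx u w z i l ^ 2 * x ^ 2 + 2 * Rxy u w z i l ^ 2 * (x * y) +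
    Ryy u w z i l ^ 2 * y ^ 2)

theorem ZZ_eq (hu : ContDiff ℝ ∞ u) (hw : FnD w) (x y : ℝ) (z : VV n) :
    ZZ (W0 u w) x y z = 4 * n * e1 u w z ^ 2 * (x + y) ^ 2 + 4 * e1 u w z * Tr u w x y z +
      Rs u w x y z := by
  unfold ZZ
  simp only [xx_eq hu hw, xy_eq hu hw, yy_eq hu hw]
  rw [mat_sq, mat_sq, mat_sq]
  have e : Rs u w x y z = (∑ i, ∑ l, Rxx u w z i l ^ 2) * x ^ 2 +
      2 * (∑ i, ∑ l, Rxy u w z i l ^ 2) * (x * y) + (∑ i, ∑ l, Ryy u w z i l ^ 2) * y ^ 2 := by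
    unfold Rs
    simp only [sum_add_distrib, ← sum_mul, ← mul_sum]
  have e' : Tr u w x y z = (∑ i, Rxx u w z i i) * x ^ 2 - 2 * (∑ i, Rxy u w z i i) * (x * y) +
      (∑ i, Ryy u w z i i) * y ^ 2 := by
    unfold Tr
    rw [sum_mul, mul_sum, sum_mul, sum_mul, ← sum_sub_distrib, ← sum_add_distrib]
    refine sum_congr rfl fun i _ => ?_
    unfold Rxx Rxy Ryy
    ring
  rw [e, e']
  ring

/-- `|R x² + 2 R' x y + R'' y²| ≤ M (|x| + |y|)²`. -/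
theorem qf_bd {p q r M x y : ℝ} (hp : |p| ≤ M) (hq : |q| ≤ M) (hr : |r| ≤ M) :
    |p * x ^ 2 + 2 * q * (x * y) + r * y ^ 2| ≤ M * (|x| + |y|) ^ 2 := by
  have h1 : |p * x ^ 2| ≤ M * |x| ^ 2 := by
    rw [abs_mul, abs_pow]
    exact mul_le_mul_of_nonneg_right hp (by positivity)
  have h2 : |2 * q * (x * y)| ≤ 2 * M * (|x| * |y|) := by
    rw [abs_mul, abs_mul, abs_mul, abs_of_pos (show (0 : ℝ) < 2 by norm_num)]
    exact mul_le_mul_of_nonneg_right (by linarith) (by positivity)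
  have h3 : |r * y ^ 2| ≤ M * |y| ^ 2 := by
    rw [abs_mul, abs_pow]
    exact mul_le_mul_of_nonneg_right hr (by positivity)
  have h4 := abs_add_le (p * x ^ 2 + 2 * q * (x * y)) (r * y ^ 2)
  have h5 := abs_add_le (p * x ^ 2) (2 * q * (x * y))
  have e : M * (|x| + |y|) ^ 2 = M * |x| ^ 2 + 2 * M * (|x| * |y|) + M * |y| ^ 2 := by ring
  linarith

theorem X_sq (x y : ℝ) : (|x| + |y|) ^ 2 ≤ 4 * (((x + y) / 2) ^ 2 + ((x - y) / 2) ^ 2) := by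
  have h1 := sq_abs x
  have h2 := sq_abs y
  nlinarith [sq_nonneg (|x| - |y|)]

/-- One term of the trace. -/
theorem tr_num {K E N σ Cs η ρ x y a b B e₁ e₂ A q p1 p2 p3 : ℝ} (hK : 0 ≤ K) (hE : 0 ≤ E)
    (h0 : 0 ≤ σ) (hη : 0 ≤ η) (hN : 0 ≤ N)
    (hB : |B| ≤ 2 * K) (he : |e₁| ≤ E) (he2 : |e₂| ≤ Cs * E) (hA : |A| ≤ 2 * N)
    (hq : |q| ≤ σ) (hD : |x * a - y * b| ≤ 4 * |(x - y) / 2| + η * |(x + y) / 2|)
    (h1 : |p1| ≤ ρ) (h2 : |p2| ≤ ρ) (h3 : |p3| ≤ ρ) (hNρ : N * ρ ≤ η * K) (hρ : 0 ≤ ρ) :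
    |B * (x * a - y * b) ^ 2 + 4 * e₁ * ((x + y) * (q * (x * a - y * b))) +
      4 * e₂ * ((x + y) ^ 2 * q ^ 2) + A * (p1 * x ^ 2 - 2 * p2 * (x * y) + p3 * y ^ 2)| ≤
    2 * K * (4 * |(x - y) / 2| + η * |(x + y) / 2|) ^ 2 +
      8 * E * σ * (|(x + y) / 2| * (4 * |(x - y) / 2| + η * |(x + y) / 2|)) +
      16 * Cs * E * σ ^ 2 * ((x + y) / 2) ^ 2 +
      8 * (η * K) * (((x + y) / 2) ^ 2 + ((x - y) / 2) ^ 2) := by
  have t1 : |B * (x * a - y * b) ^ 2| ≤ 2 * K * (4 * |(x - y) / 2| + η * |(x + y) / 2|) ^ 2 := by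
    rw [abs_mul, abs_pow]
    exact mul_le_mul hB (pow_le_pow_left₀ (abs_nonneg _) hD 2) (by positivity) (by positivity)
  have t2 : |4 * e₁ * ((x + y) * (q * (x * a - y * b)))| ≤
      8 * E * σ * (|(x + y) / 2| * (4 * |(x - y) / 2| + η * |(x + y) / 2|)) := by
    rw [abs_mul, abs_mul, abs_mul, abs_mul, abs_of_pos (show (0 : ℝ) < 4 by norm_num)]
    have e : |x + y| = 2 * |(x + y) / 2| := by
      rw [abs_div, abs_of_pos (show (0 : ℝ) < 2 by norm_num)]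
      ring
    rw [e]
    have k1 : |q| * |x * a - y * b| ≤ σ * (4 * |(x - y) / 2| + η * |(x + y) / 2|) :=
      mul_le_mul hq hD (abs_nonneg _) h0
    have k2 : 4 * |e₁| * (2 * |(x + y) / 2| * (|q| * |x * a - y * b|)) ≤
        4 * E * (2 * |(x + y) / 2| * (σ * (4 * |(x - y) / 2| + η * |(x + y) / 2|))) := by
      gcongr
    linarith
  have t3 : |4 * e₂ * ((x + y) ^ 2 * q ^ 2)| ≤ 16 * Cs * E * σ ^ 2 * ((x + y) / 2) ^ 2 := by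
    rw [abs_mul, abs_mul, abs_of_pos (show (0 : ℝ) < 4 by norm_num),
      abs_of_nonneg (show 0 ≤ (x + y) ^ 2 * q ^ 2 by positivity)]
    have k1 : q ^ 2 ≤ σ ^ 2 := by
      rw [← sq_abs q]
      exact pow_le_pow_left₀ (abs_nonneg _) hq 2
    have k2 : 4 * |e₂| * ((x + y) ^ 2 * q ^ 2) ≤ 4 * (Cs * E) * ((x + y) ^ 2 * σ ^ 2) := by
      have : 0 ≤ Cs * E := (abs_nonneg _).trans he2
      gcongr
    linarith
  have t4 : |A * (p1 * x ^ 2 - 2 * p2 * (x * y) + p3 * y ^ 2)| ≤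
      8 * (η * K) * (((x + y) / 2) ^ 2 + ((x - y) / 2) ^ 2) := by
    rw [abs_mul]
    have k1 : |p1 * x ^ 2 - 2 * p2 * (x * y) + p3 * y ^ 2| ≤ ρ * (|x| + |y|) ^ 2 := by
      have := qf_bd (x := x) (y := y) h1 (show |-p2| ≤ ρ by rwa [abs_neg]) h3
      rwa [show p1 * x ^ 2 + 2 * -p2 * (x * y) + p3 * y ^ 2 =
        p1 * x ^ 2 - 2 * p2 * (x * y) + p3 * y ^ 2 by ring] at this
    have k2 : |A| * |p1 * x ^ 2 - 2 * p2 * (x * y) + p3 * y ^ 2| ≤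
        2 * N * (ρ * (|x| + |y|) ^ 2) := mul_le_mul hA k1 (abs_nonneg _) (by positivity)
    have k3 := mul_le_mul_of_nonneg_right hNρ (show 0 ≤ 2 * (|x| + |y|) ^ 2 by positivity)
    have k4 := mul_le_mul_of_nonneg_left (X_sq x y) (show 0 ≤ 2 * (η * K) by positivity)
    linarith
  have a1 := abs_add_le (B * (x * a - y * b) ^ 2 + 4 * e₁ * ((x + y) * (q * (x * a - y * b))) +
      4 * e₂ * ((x + y) ^ 2 * q ^ 2)) (A * (p1 * x ^ 2 - 2 * p2 * (x * y) + p3 * y ^ 2))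
  have a2 := abs_add_le (B * (x * a - y * b) ^ 2 + 4 * e₁ * ((x + y) * (q * (x * a - y * b))))
    (4 * e₂ * ((x + y) ^ 2 * q ^ 2))
  have a3 := abs_add_le (B * (x * a - y * b) ^ 2) (4 * e₁ * ((x + y) * (q * (x * a - y * b))))
  linarith

/-- The trace times `4 e₁`, numbers. -/
theorem tr_num2 {n K E σ Cs η θ b c : ℝ} (hn : 0 ≤ n) (hK : 0 ≤ K) (hKE : K ≤ E)
    (hE : 0 < E) (h0 : 0 ≤ σ) (hσ1 : σ ≤ 1) (hσ : E * σ ^ 2 ≤ K) (hη : 0 ≤ η) (hη1 : η ≤ 1)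
    (hθ : 0 < θ) (hCs : 0 ≤ Cs) :
    4 * E * (n * (2 * K * (4 * |c| + η * |b|) ^ 2 + 8 * E * σ * (|b| * (4 * |c| + η * |b|)) +
      16 * Cs * E * σ ^ 2 * b ^ 2 + 8 * (η * K) * (b ^ 2 + c ^ 2))) ≤
    (θ + n * (80 * η + 64 * Cs * σ ^ 2)) * (E ^ 2 * b ^ 2) +
      (4096 * n ^ 2 / θ + 288 * n) * (E * K * c ^ 2) := by
  have e1 : (4 * |c| + η * |b|) ^ 2 ≤ 32 * c ^ 2 + 2 * η * b ^ 2 := by
    have h1 := sq_abs b
    have h2 := sq_abs c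
    have h3 : (4 * |c| + η * |b|) ^ 2 ≤ 2 * (4 * |c|) ^ 2 + 2 * (η * |b|) ^ 2 := by
      nlinarith [sq_nonneg (4 * |c| - η * |b|)]
    have h4 : (η * |b|) ^ 2 ≤ η * b ^ 2 := by
      rw [mul_pow, h1]
      have : η ^ 2 ≤ η := by nlinarith
      exact mul_le_mul_of_nonneg_right this (sq_nonneg _)
    nlinarith
  have e2 : 128 * n * E ^ 2 * σ * (|b| * |c|) ≤ θ * (E ^ 2 * b ^ 2) +
      4096 * n ^ 2 / θ * (E * K * c ^ 2) := by
    have h1 := yg (θ := θ) (u := E * |b|) (v := 128 * n * E * σ * |c|) hθ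
    have h2 : (128 * n * E * σ * |c|) ^ 2 / (4 * θ) ≤ 4096 * n ^ 2 / θ * (E * K * c ^ 2) := by
      have e : (128 * n * E * σ * |c|) ^ 2 / (4 * θ) =
          4096 * n ^ 2 / θ * (E * (E * σ ^ 2) * c ^ 2) := by
        rw [show (128 * n * E * σ * |c|) ^ 2 = (128 * n * E * σ) ^ 2 * |c| ^ 2 by ring, sq_abs]
        field_simp
        ring
      rw [e]
      gcongr
    have h3 : θ * (E * |b|) ^ 2 = θ * (E ^ 2 * b ^ 2) := by rw [mul_pow, sq_abs]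
    have h4 : E * |b| * (128 * n * E * σ * |c|) = 128 * n * E ^ 2 * σ * (|b| * |c|) := by ring
    linarith
  have e3 : 4 * E * (n * (8 * E * σ * (|b| * (4 * |c| + η * |b|)))) =
      128 * n * E ^ 2 * σ * (|b| * |c|) + 32 * n * η * (E ^ 2 * σ * b ^ 2) := by
    rw [← sq_abs b]
    ring
  have e4 : 32 * n * η * (E ^ 2 * σ * b ^ 2) ≤ 32 * n * η * (E ^ 2 * 1 * b ^ 2) := by gcongr
  have e5 : 4 * E * (n * (2 * K * (4 * |c| + η * |b|) ^ 2)) ≤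
      4 * E * (n * (2 * K * (32 * c ^ 2 + 2 * η * b ^ 2))) := by gcongr
  have e6 : 16 * n * η * (E * K * b ^ 2) ≤ 16 * n * η * (E * E * b ^ 2) := by gcongr
  have e7 : 32 * n * η * (E * K * b ^ 2) ≤ 32 * n * η * (E * E * b ^ 2) := by gcongr
  have e8 : 32 * n * η * (E * K * c ^ 2) ≤ 32 * n * 1 * (E * K * c ^ 2) := by gcongr
  nlinarith

/-- One entry of the rest. -/
theorem re_num {K E σ Cs ρ N a b B e₁ e₂ A q q' p : ℝ} (hK : 0 ≤ K) (hE : 0 ≤ E)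
    (h0 : 0 ≤ σ) (hσ1 : σ ≤ 1) (hCs : 0 ≤ Cs) (hN : 0 ≤ N) (hρ : 0 ≤ ρ)
    (hB : |B| ≤ 2 * K) (he : |e₁| ≤ E) (he2 : |e₂| ≤ Cs * E) (hA : |A| ≤ 2 * N)
    (hq : |q| ≤ σ) (hq' : |q'| ≤ σ) (ha : |a| ≤ 2) (hb : |b| ≤ 2) (hp : |p| ≤ ρ)
    (hNρ : N * ρ ≤ K) (s t : ℝ) (hs : |s| ≤ 4 * σ) (hs' : t = 1 ∨ t = -1) :
    |B * (a * b) + 2 * e₁ * s + t * (4 * e₂ * (q * q')) + A * p| ≤
      (10 + 4 * Cs) * (K + E * σ) := by
  have t1 : |B * (a * b)| ≤ 8 * K := by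
    rw [abs_mul, abs_mul]
    have : |a| * |b| ≤ 2 * 2 := mul_le_mul ha hb (abs_nonneg _) (by norm_num)
    have := mul_le_mul hB this (by positivity) (by positivity)
    linarith
  have t2 : |2 * e₁ * s| ≤ 8 * E * σ := by
    rw [abs_mul, abs_mul, abs_of_pos (show (0 : ℝ) < 2 by norm_num)]
    have := mul_le_mul he hs (abs_nonneg _) hE
    linarith
  have t3 : |t * (4 * e₂ * (q * q'))| ≤ 4 * Cs * E * σ := by
    have ht : |t| = 1 := by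
      rcases hs' with h | h <;> rw [h] <;> norm_num
    rw [abs_mul, ht, one_mul, abs_mul, abs_mul, abs_mul,
      abs_of_pos (show (0 : ℝ) < 4 by norm_num)]
    have k1 : |q| * |q'| ≤ σ * 1 := mul_le_mul hq (hq'.trans hσ1) (abs_nonneg _) h0
    have k2 := mul_le_mul he2 k1 (by positivity) (by positivity)
    linarith
  have t4 : |A * p| ≤ 2 * K := by
    rw [abs_mul]
    have := mul_le_mul hA hp (abs_nonneg _) (by positivity)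
    linarith
  have a1 := abs_add_le (B * (a * b) + 2 * e₁ * s + t * (4 * e₂ * (q * q'))) (A * p)
  have a2 := abs_add_le (B * (a * b) + 2 * e₁ * s) (t * (4 * e₂ * (q * q')))
  have a3 := abs_add_le (B * (a * b)) (2 * e₁ * s)
  have k1 : 0 ≤ E * σ := by positivity
  have k2 : 0 ≤ Cs * K := by positivity
  nlinarith

/-- The square of an entry. -/
theorem re_sq {K E σ a c m r : ℝ} (hK : 0 ≤ K) (hE : 0 ≤ E) (ha : K ≤ a * E)
    (hσ : E * σ ^ 2 ≤ c * K) (hm : 0 ≤ m) (h : |r| ≤ m * (K + E * σ)) :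
    |r ^ 2| ≤ 2 * m ^ 2 * (a + c) * (E * K) := by
  rw [abs_pow]
  have h1 : |r| ^ 2 ≤ (m * (K + E * σ)) ^ 2 := pow_le_pow_left₀ (abs_nonneg _) h 2
  have h2 : (K + E * σ) ^ 2 ≤ 2 * (K ^ 2 + E * (E * σ ^ 2)) := by
    nlinarith [sq_nonneg (K - E * σ)]
  have h3 : K ^ 2 ≤ a * E * K := by nlinarith
  have h4 : E * (E * σ ^ 2) ≤ E * (c * K) := mul_le_mul_of_nonneg_left hσ hE
  have h5 : (m * (K + E * σ)) ^ 2 ≤ m ^ 2 * (2 * (a * E * K + E * (c * K))) := by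
    rw [mul_pow]
    have : (K + E * σ) ^ 2 ≤ 2 * (a * E * K + E * (c * K)) := by linarith
    exact mul_le_mul_of_nonneg_left this (sq_nonneg m)
  linarith

theorem sum2_bd (f : Fin n → Fin n → ℝ) {M : ℝ} (h : ∀ i j, |f i j| ≤ M) :
    |∑ i, ∑ j, f i j| ≤ n ^ 2 * M := by
  have := sum_bd (fun i => ∑ j, f i j) (M := n * M) fun i => sum_bd _ (h i)
  refine this.trans (le_of_eq ?_)
  ring

theorem sq_one (h : qq z ≤ 1) : √(qq z) ≤ 1 := by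
  rw [show (1 : ℝ) = √1 by simp]
  exact Real.sqrt_le_sqrt h

theorem Tr_le {Cs Cd η ρ θ : ℝ} (h : PN Cs Cd u w z)
    (g : PU η ρ (w.φ₁ (u z)) (w.φ₂ (u z)) u z) (hθ : 0 < θ) (x y : ℝ) :
    4 * e1 u w z * Tr u w x y z ≤
      (θ + n * (80 * η + 64 * Cs * qq z)) * (Real.exp (u z) ^ 2 * ((x + y) / 2) ^ 2) +
      (4096 * n ^ 2 / θ + 288 * n) * (Real.exp (u z) * w.φ₂ (u z) * ((x - y) / 2) ^ 2) := by
  have hn : (0 : ℝ) ≤ n := Nat.cast_nonneg n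
  have hη : 0 ≤ η := g.ρ0.trans g.ρη
  have hE := Real.exp_pos (u z)
  have hσ0 := Real.sqrt_nonneg (qq z)
  have hσ2 : √(qq z) ^ 2 = qq z := Real.sq_sqrt (qq_nonneg z)
  have T1 : |Tr u w x y z| ≤ n * (2 * w.φ₂ (u z) *
      (4 * |(x - y) / 2| + η * |(x + y) / 2|) ^ 2 + 8 * Real.exp (u z) * √(qq z) *
      (|(x + y) / 2| * (4 * |(x - y) / 2| + η * |(x + y) / 2|)) +
      16 * Cs * Real.exp (u z) * √(qq z) ^ 2 * ((x + y) / 2) ^ 2 +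
      8 * (η * w.φ₂ (u z)) * (((x + y) / 2) ^ 2 + ((x - y) / 2) ^ 2)) := by
    refine sum_bd _ fun i => ?_
    have := ab_bd (β := (x + y) / 2) (γ := (x - y) / 2) (g.ga i) (g.gb i) (g.gd i)
    rw [show (x + y) / 2 + (x - y) / 2 = x by ring, show (x + y) / 2 - (x - y) / 2 = y by ring]
      at this
    exact tr_num h.K0.le hE.le hσ0 hη h.N0.le h.B_le h.e1_le h.e2_le h.A_le (qv_bd i z)
      this (g.xx i i) (g.xy i i) (g.yy i i) g.Nρ g.ρ0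
  have T3 := tr_num2 (b := (x + y) / 2) (c := (x - y) / 2) hn h.K0.le h.KE hE hσ0 (sq_one h.q1)
    (by rw [hσ2]; exact h.tK) hη g.η1 hθ h.Cs0
  rw [hσ2] at T1 T3
  refine ((le_abs_self _).trans ?_).trans T3
  rw [abs_mul, abs_mul, abs_of_pos (show (0 : ℝ) < 4 by norm_num)]
  exact mul_le_mul (by linarith [h.e1_le]) T1 (abs_nonneg _) (by positivity)

theorem s4 {σ p q r t : ℝ} (hp : |p| ≤ σ) (hq : |q| ≤ 2) (hr : |r| ≤ 2) (ht : |t| ≤ σ) :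
    |p * q| + |r * t| ≤ 4 * σ := by
  rw [abs_mul, abs_mul]
  have h1 : |p| * |q| ≤ σ * 2 := mul_le_mul hp hq (abs_nonneg _) ((abs_nonneg p).trans hp)
  have h2 : |r| * |t| ≤ 2 * σ := mul_le_mul hr ht (abs_nonneg _) (by norm_num)
  linarith

section ent

variable {Cs Cd η ρ : ℝ} (h : PN Cs Cd u w z) (g : PU η ρ (w.φ₁ (u z)) (w.φ₂ (u z)) u z)

include h g

theorem Rxx_le (i l : Fin n) : |Rxx u w z i l| ≤
    (10 + 4 * Cs) * (w.φ₂ (u z) + Real.exp (u z) * √(qq z)) := by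
  have hNρ : w.φ₁ (u z) * ρ ≤ w.φ₂ (u z) := g.Nρ.trans (by nlinarith [g.η1, h.K1])
  have k := s4 (qv_bd i z) (g.ga l) (g.ga i) (qv_bd l z)
  have := re_num h.K0.le (Real.exp_pos (u z)).le (Real.sqrt_nonneg _) (sq_one h.q1) h.Cs0 h.N0.le
    g.ρ0 h.B_le h.e1_le h.e2_le h.A_le (qv_bd i z) (qv_bd l z) (g.ga i) (g.ga l) (g.xx i l) hNρ
    (qv i z * dx l u z + dx i u z * qv l z) 1
    ((abs_add_le _ _).trans k) (Or.inl rfl)
  rwa [one_mul] at this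

theorem Rxy_le (i l : Fin n) : |Rxy u w z i l| ≤
    (10 + 4 * Cs) * (w.φ₂ (u z) + Real.exp (u z) * √(qq z)) := by
  have hNρ : w.φ₁ (u z) * ρ ≤ w.φ₂ (u z) := g.Nρ.trans (by nlinarith [g.η1, h.K1])
  have k := s4 (qv_bd i z) (g.gb l) (g.ga i) (qv_bd l z)
  have := re_num h.K0.le (Real.exp_pos (u z)).le (Real.sqrt_nonneg _) (sq_one h.q1) h.Cs0 h.N0.le
    g.ρ0 h.B_le h.e1_le h.e2_le h.A_le (qv_bd i z) (qv_bd l z) (g.ga i) (g.gb l) (g.xy i l) hNρ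
    (qv i z * dy l u z - dx i u z * qv l z) (-1)
    ((abs_sub _ _).trans k) (Or.inr rfl)
  rw [neg_one_mul, ← sub_eq_add_neg] at this
  exact this

theorem Ryy_le (i l : Fin n) : |Ryy u w z i l| ≤
    (10 + 4 * Cs) * (w.φ₂ (u z) + Real.exp (u z) * √(qq z)) := by
  have hNρ : w.φ₁ (u z) * ρ ≤ w.φ₂ (u z) := g.Nρ.trans (by nlinarith [g.η1, h.K1])
  have k := s4 (qv_bd i z) (g.gb l) (g.gb i) (qv_bd l z)
  have := re_num h.K0.le (Real.exp_pos (u z)).le (Real.sqrt_nonneg _) (sq_one h.q1) h.Cs0 h.N0.le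
    g.ρ0 h.B_le h.e1_le h.e2_le h.A_le (qv_bd i z) (qv_bd l z) (g.gb i) (g.gb l) (g.yy i l) hNρ
    (-(qv i z * dy l u z + dy i u z * qv l z)) 1
    (by rw [abs_neg]; exact (abs_add_le _ _).trans k) (Or.inl rfl)
  rw [one_mul, mul_neg, ← sub_eq_add_neg] at this
  exact this

theorem Rs_le {a c : ℝ} (ha : w.φ₂ (u z) ≤ a * Real.exp (u z)) (ha0 : 0 ≤ a)
    (hc : Real.exp (u z) * qq z ≤ c * w.φ₂ (u z)) (hc0 : 0 ≤ c) (x y : ℝ) :
    8 * Rs u w x y z ≤ 64 * n ^ 2 * (10 + 4 * Cs) ^ 2 * ((a + c) * a) *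
        (Real.exp (u z) ^ 2 * ((x + y) / 2) ^ 2) +
      64 * n ^ 2 * (10 + 4 * Cs) ^ 2 * (a + c) *
        (Real.exp (u z) * w.φ₂ (u z) * ((x - y) / 2) ^ 2) := by
  have hE := Real.exp_pos (u z)
  have hK := h.K0
  have hσ2 : √(qq z) ^ 2 = qq z := Real.sq_sqrt (qq_nonneg z)
  have hm : (0 : ℝ) ≤ 10 + 4 * Cs := by linarith [h.Cs0]
  rw [← hσ2] at hc
  have R1 : |Rs u w x y z| ≤ n ^ 2 * (2 * (10 + 4 * Cs) ^ 2 * (a + c) *
      (Real.exp (u z) * w.φ₂ (u z)) * (|x| + |y|) ^ 2) :=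
    sum2_bd _ fun i l => qf_bd (re_sq hK.le hE.le ha hc hm (Rxx_le h g i l))
      (re_sq hK.le hE.le ha hc hm (Rxy_le h g i l)) (re_sq hK.le hE.le ha hc hm (Ryy_le h g i l))
  have R2 := mul_le_mul_of_nonneg_left (X_sq x y) (show 0 ≤ (n : ℝ) ^ 2 *
    (2 * (10 + 4 * Cs) ^ 2 * (a + c) * (Real.exp (u z) * w.φ₂ (u z))) by positivity)
  have R3 : 64 * n ^ 2 * (10 + 4 * Cs) ^ 2 * ((a + c) * (Real.exp (u z) * w.φ₂ (u z)) *
      ((x + y) / 2) ^ 2) ≤ 64 * n ^ 2 * (10 + 4 * Cs) ^ 2 *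
      ((a + c) * (Real.exp (u z) * (a * Real.exp (u z))) * ((x + y) / 2) ^ 2) := by gcongr
  have R4 := (le_abs_self _).trans R1
  linarith

end ent

theorem Mn_le {Cs Cd : ℝ} (h : PN Cs Cd u w z) (x y : ℝ) :
    4 * n * e1 u w z ^ 2 * (x + y) ^ 2 ≤
      n * (Real.exp (u z) ^ 2 * (1 + 6 * (Cs * qq z))) * (4 * ((x + y) / 2) ^ 2) := by
  have h0 : 0 ≤ Cs * qq z := mul_nonneg h.Cs0 (qq_nonneg z)
  have M1 : 4 * e1 u w z ^ 2 ≤ Real.exp (u z) ^ 2 * (1 + 6 * (Cs * qq z)) := by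
    have k1 : |w.Ψ₁ (qq z)| ≤ 1 / 2 + Cs * qq z := by
      have := abs_le.1 h.P1
      exact abs_le.2 ⟨by linarith, by linarith⟩
    have k2 : w.Ψ₁ (qq z) ^ 2 ≤ (1 / 2 + Cs * qq z) ^ 2 := by
      rw [← sq_abs (w.Ψ₁ (qq z))]
      exact pow_le_pow_left₀ (abs_nonneg _) k1 2
    have k3 : 4 * w.Ψ₁ (qq z) ^ 2 ≤ 1 + 6 * (Cs * qq z) := by nlinarith [h.qC]
    have k4 := mul_le_mul_of_nonneg_left k3 (sq_nonneg (Real.exp (u z)))
    have e : 4 * e1 u w z ^ 2 = Real.exp (u z) ^ 2 * (4 * w.Ψ₁ (qq z) ^ 2) := by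
      unfold e1
      ring
    rw [e]
    exact k4
  have k := mul_le_mul_of_nonneg_right M1 (show 0 ≤ (n : ℝ) * (x + y) ^ 2 by positivity)
  linarith

/-- **The zero order squares.** -/
theorem ZZ_le {Cs Cd η ρ a c θ : ℝ} (hu : ContDiff ℝ ∞ u) (hw : FnD w) (h : PN Cs Cd u w z)
    (g : PU η ρ (w.φ₁ (u z)) (w.φ₂ (u z)) u z)
    (ha : w.φ₂ (u z) ≤ a * Real.exp (u z)) (ha0 : 0 ≤ a)
    (hc : Real.exp (u z) * qq z ≤ c * w.φ₂ (u z)) (hc0 : 0 ≤ c) (hθ : 0 < θ) (x y : ℝ) :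
    8 * ZZ (W0 u w) x y z ≤ 32 * n * (Real.exp (u z) ^ 2 * ((x + y) / 2) ^ 2) +
      (192 * n * (Cs * qq z) + 8 * (θ + n * (80 * η + 64 * Cs * qq z)) +
        64 * n ^ 2 * (10 + 4 * Cs) ^ 2 * ((a + c) * a)) *
        (Real.exp (u z) ^ 2 * ((x + y) / 2) ^ 2) +
      (8 * (4096 * n ^ 2 / θ + 288 * n) + 64 * n ^ 2 * (10 + 4 * Cs) ^ 2 * (a + c)) *
        (Real.exp (u z) * w.φ₂ (u z) * ((x - y) / 2) ^ 2) := by
  have T := Tr_le h g hθ x y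
  have R := Rs_le h g ha ha0 hc hc0 x y
  have M := Mn_le h x y
  rw [ZZ_eq hu hw]
  linarith

end Vale.Agent.P088.R2.H321.ZI
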