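import Vale.Agent.P088.R2.H321.ZI.PU6

/-!
# Zone I: the pointwise inequality with a curved level
-/

open Set Finset
open scoped ContDiff

noncomputable section

namespace Vale.Agent.P088.R2.H321.ZI

open Vale.Agent.P088.LR Vale.Agent.P088.HY
open Vale.Agent.P088.R2.H644 Vale.Agent.P088.R2.H205.CP

variable {n : ℕ} {u : VV n → ℝ} {w : Fn} {z : VV n}

theorem hs_dd (hu : ContDiff ℝ ∞ u) (v z : VV n) : hs u v z = dd v (dd v u) z := by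
  have e : dd v u = fun z => ∑ j, v.1 j * dx j u z + ∑ j, v.2 j * dy j u z :=
    funext fun z => dd_split v u z
  have h := (HD_sum univ fun j _ => (HDs (cdx hu j) v z).cmul (v.1 j)).add
    (HD_sum univ fun j _ => (HDs (cdy hu j) v z).cmul (v.2 j))
  have h2 := h.e
  rw [← e] at h2
  rw [h2]
  rfl

/-- The Hessian part, numbers. -/
theorem he_num {K E N e₀ e₁ e₂ A B h s t y2 q Cs c η θ : ℝ} (hK : 0 < K) (hE : 0 < E)
    (he0 : 0 ≤ e₀) (heN : e₀ ≤ N) (hB : B = K + e₀) (hA : A = N + e₀) (hCs : 0 ≤ Cs)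
    (hq : 0 ≤ q) (he1 : |e₁ - E / 2| ≤ E * (Cs * q)) (hqC : Cs * q ≤ 1 / 2)
    (he2 : |e₂| ≤ Cs * E) (ht : t ^ 2 ≤ q * y2) (hy : 0 ≤ y2) (hc : E * q ≤ c * K)
    (hθ : 0 < θ) (hη : 0 ≤ η) (hh : -(η * K * s ^ 2) ≤ N * h) :
    (1 - 2 * η - θ) * (K * s ^ 2) + (1 - 6 * (Cs * q) - 4 * c / θ) * (E * y2) ≤
      B * s ^ 2 + 4 * e₁ * t * s + A * h + 4 * e₂ * t ^ 2 + 2 * e₁ * y2 := by
  have k1 := abs_le.1 he1
  have k0 : 0 ≤ E * (Cs * q) := by positivity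
  have a1 : K * s ^ 2 ≤ B * s ^ 2 := by
    rw [hB]
    exact mul_le_mul_of_nonneg_right (by linarith) (sq_nonneg s)
  have a2 : -(2 * η * (K * s ^ 2)) ≤ A * h := by
    rw [hA, add_mul]
    by_cases h0 : 0 ≤ h
    · have e1 : 0 ≤ N * h := mul_nonneg (he0.trans heN) h0
      have e2 : 0 ≤ e₀ * h := mul_nonneg he0 h0
      have e3 : 0 ≤ η * (K * s ^ 2) := by positivity
      linarith
    · push Not at h0
      have e1 : N * h ≤ e₀ * h := mul_le_mul_of_nonpos_right heN h0.le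
      linarith
  have e1E : |e₁| ≤ E := by
    refine abs_le.2 ⟨?_, ?_⟩
    · nlinarith
    · nlinarith
  have a3 : -(θ * (K * s ^ 2)) - 4 * c / θ * (E * y2) ≤ 4 * e₁ * t * s := by
    have h1 := yg (θ := θ * K) (u := |s|) (v := 4 * |e₁| * |t|) (by positivity)
    have h2 : (4 * |e₁| * |t|) ^ 2 / (4 * (θ * K)) ≤ 4 * c / θ * (E * y2) := by
      have b1 : (4 * |e₁| * |t|) ^ 2 ≤ 16 * (E ^ 2 * (q * y2)) := by
        have : (4 * |e₁| * |t|) ^ 2 = 16 * (|e₁| ^ 2 * t ^ 2) := by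
          rw [← sq_abs t]
          ring
        rw [this]
        gcongr
      rw [div_le_iff₀ (by positivity)]
      have b2 := mul_le_mul_of_nonneg_right hc (show 0 ≤ 16 * (E * y2) by positivity)
      have e : 4 * c / θ * (E * y2) * (4 * (θ * K)) = 16 * (c * K * (E * y2)) := by
        field_simp
        ring
      rw [e]
      linarith
    have h3 : |4 * e₁ * t * s| = |s| * (4 * |e₁| * |t|) := by
      rw [abs_mul, abs_mul, abs_mul, abs_of_pos (show (0 : ℝ) < 4 by norm_num)]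
      ring
    have h4 := neg_abs_le (4 * e₁ * t * s)
    rw [h3] at h4
    rw [sq_abs] at h1
    linarith
  have a4 : -(4 * (Cs * q) * (E * y2)) ≤ 4 * e₂ * t ^ 2 := by
    have b1 : |4 * e₂ * t ^ 2| ≤ 4 * (Cs * E) * (q * y2) := by
      rw [abs_mul, abs_mul, abs_of_pos (show (0 : ℝ) < 4 by norm_num),
        abs_of_nonneg (sq_nonneg t)]
      have : 0 ≤ Cs * E := by positivity
      gcongr
    have b2 := neg_abs_le (4 * e₂ * t ^ 2)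
    linarith
  have a5 : (1 - 2 * (Cs * q)) * (E * y2) ≤ 2 * e₁ * y2 := by
    have : (1 - 2 * (Cs * q)) * E ≤ 2 * e₁ := by linarith
    have := mul_le_mul_of_nonneg_right this hy
    linarith
  linarith

theorem he_le {Cs Cd c η θ : ℝ} (h : PN Cs Cd u w z) (v : VV n)
    (hc : Real.exp (u z) * qq z ≤ c * w.φ₂ (u z)) (hθ : 0 < θ) (hη : 0 ≤ η)
    (hh : -(η * w.φ₂ (u z) * dd v u z ^ 2) ≤ w.φ₁ (u z) * hs u v z) :
    (1 - 2 * η - θ) * (w.φ₂ (u z) * dd v u z ^ 2) +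
      (1 - 6 * (Cs * qq z) - 4 * c / θ) * (Real.exp (u z) * s2 (v.1 - v.2)) ≤
      Bb u w z * dd v u z ^ 2 + 4 * e1 u w z * qd v z * dd v u z + Aa u w z * hs u v z +
        4 * e2 u w z * qd v z ^ 2 + 2 * e1 u w z * s2 (v.1 - v.2) := by
  refine he_num h.K0 (Real.exp_pos _) h.ep (h.eq.trans h.tN) rfl rfl h.Cs0 (qq_nonneg z) ?_ h.qC
    h.e2_le ?_ (sum_nonneg fun i _ => sq_nonneg _) hc hθ hη hh
  · have e : e1 u w z - Real.exp (u z) / 2 = Real.exp (u z) * (w.Ψ₁ (qq z) - 1 / 2) := by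
      unfold e1
      ring
    rw [e, abs_mul, abs_of_pos (Real.exp_pos _)]
    exact mul_le_mul_of_nonneg_left h.P1 (Real.exp_pos _).le
  · exact sum_mul_sq_le_sq_mul_sq univ (fun j => qv j z) fun j => v.1 j - v.2 j

/-- The final sum, numbers. `X = K s²`, `Y = E y²`, `b2 = E² b²`, `c2 = E K c²`. -/
theorem fin_num {X Y b2 c2 h z8 t8 f n δ η θ θ' c q κ Cz L Cf H S st : ℝ}
    (hX : 0 ≤ X) (hY : 0 ≤ Y) (hb : 0 ≤ b2) (hS : 0 ≤ S)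
    (hh : (1 - 2 * η - θ') * X + (1 - 6 * q - 4 * c / θ') * Y ≤ h)
    (hz : z8 ≤ 32 * n * b2 + κ * b2 + Cz * c2)
    (ht : t8 ≤ 4 * θ * X + 2 * θ * Y + 5 * θ * b2 + (L ^ 2 / (2 * θ) + 3) * c2 + 4 * (η * H))
    (hf : -(θ * b2 + Cf * c2) ≤ f) (hHS : H ≤ 2 * n * S) (hη : 0 ≤ η)
    (hst : st = 8 * h - z8 - t8 + f)
    (e1 : 16 * η + 8 * θ' + 4 * θ ≤ 8 * δ) (e2 : 48 * q + 32 * c / θ' + 2 * θ ≤ 8 * δ)
    (e3 : κ + 6 * θ ≤ 32 * n * δ) (hn : 0 ≤ n) :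
    8 * (1 - δ) * (X + Y) - 32 * n * (1 + δ) * b2 - (Cz + (L ^ 2 / (2 * θ) + 3) + Cf) * c2 -
      8 * n * η * S ≤ st := by
  have k1 := mul_le_mul_of_nonneg_right e1 hX
  have k2 := mul_le_mul_of_nonneg_right e2 hY
  have k3 := mul_le_mul_of_nonneg_right e3 hb
  have k4 := mul_le_mul_of_nonneg_left hHS hη
  have k5 : 32 * c / θ' = 8 * (4 * c / θ') := by ring
  rw [k5] at k2
  rw [hst]
  linarith

/-- The fourth order terms. -/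
theorem four_le {F1 F2 F3 E K Cd CF x y θ : ℝ} (hE : 0 < E) (hK1 : 1 ≤ K) (hKE : K ≤ E)
    (hCd : 0 ≤ Cd) (hCF : 0 ≤ CF) (h1 : |F1| ≤ CF * (E + (1 + Cd) * K))
    (h2 : |F2| ≤ CF * (E + (1 + Cd) * K)) (h3 : |F3| ≤ CF * (E + (1 + Cd) * K))
    (e1 : 8 * CF * (2 + Cd) ≤ θ * E) (e2 : 1 + Cd ≤ E) :
    -(θ * (E ^ 2 * ((x + y) / 2) ^ 2) + 16 * CF * (E * K * ((x - y) / 2) ^ 2)) ≤
      2 * (F1 * x ^ 2 + 2 * (F2 * (x * y)) + F3 * y ^ 2) := by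
  have k1 := qf_bd (x := x) (y := y) h1 h2 h3
  have k2 := X_sq x y
  have k3 : 0 ≤ CF * (E + (1 + Cd) * K) := (abs_nonneg _).trans h1
  have k4 := mul_le_mul_of_nonneg_left k2 k3
  have k5 := neg_abs_le (F1 * x ^ 2 + 2 * F2 * (x * y) + F3 * y ^ 2)
  have k6 : E + (1 + Cd) * K ≤ (2 + Cd) * E := by nlinarith
  have k7 : E + (1 + Cd) * K ≤ 2 * (E * K) := by nlinarith
  have b0 := sq_nonneg ((x + y) / 2)
  have c0 := sq_nonneg ((x - y) / 2)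
  have k8 : 8 * (CF * (E + (1 + Cd) * K)) * ((x + y) / 2) ^ 2 ≤
      θ * (E ^ 2 * ((x + y) / 2) ^ 2) := by
    have : 8 * (CF * (E + (1 + Cd) * K)) ≤ 8 * (CF * ((2 + Cd) * E)) := by gcongr
    have h' : 8 * (CF * ((2 + Cd) * E)) ≤ θ * E ^ 2 := by nlinarith
    have := mul_le_mul_of_nonneg_right (this.trans h') b0
    linarith
  have k9 : 8 * (CF * (E + (1 + Cd) * K)) * ((x - y) / 2) ^ 2 ≤
      16 * CF * (E * K * ((x - y) / 2) ^ 2) := by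
    have : 8 * (CF * (E + (1 + Cd) * K)) ≤ 8 * (CF * (2 * (E * K))) := by gcongr
    have := mul_le_mul_of_nonneg_right this c0
    linarith
  linarith

/-- **The pointwise inequality with explicit constants**. -/
theorem piu {Cs Cd η ρ a c θ θ' δ M CF : ℝ} (hn1 : (1 : ℝ) ≤ n) (hu : ContDiff ℝ ∞ u)
    (hw : FnD w) (h : PN Cs Cd u w z)
    (g : PU η ρ (w.φ₁ (u z)) (w.φ₂ (u z)) u z) (hnM : (n : ℝ) ≤ M) (hCM : Cs ≤ M)
    (hnC : n * Cs ≤ M)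
    (ha : w.φ₂ (u z) ≤ a * Real.exp (u z)) (ha0 : 0 ≤ a)
    (hc : Real.exp (u z) * qq z ≤ c * w.φ₂ (u z)) (hc0 : 0 ≤ c) (hθ : 0 < θ) (hθ1 : θ ≤ 1)
    (hθ' : 0 < θ')
    (hcv : ∀ v : VV n, -(η * w.φ₂ (u z) * dd v u z ^ 2) ≤ w.φ₁ (u z) * hs u v z)
    (hCF : 0 ≤ CF)
    (f1 : |lx (LX u w) z| ≤ CF * (Real.exp (u z) + (1 + Cd) * w.φ₂ (u z)))
    (f2 : |lx (LY u w) z| ≤ CF * (Real.exp (u z) + (1 + Cd) * w.φ₂ (u z)))
    (f3 : |ly (LY u w) z| ≤ CF * (Real.exp (u z) + (1 + Cd) * w.φ₂ (u z)))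
    (c1 : (576 * M) ^ 2 ≤ 4 * θ ^ 2 * w.φ₂ (u z))
    (c2 : (576 * M * (Cd + 1)) ^ 2 ≤ 4 * θ ^ 2 * Real.exp (u z))
    (c3 : η * (576 * M) ^ 2 ≤ 4 * θ)
    (c4 : 8 * CF * (2 + Cd) ≤ θ * Real.exp (u z)) (c5 : 1 + Cd ≤ Real.exp (u z))
    (e1 : 16 * η + 8 * θ' + 4 * θ ≤ 8 * δ)
    (e2 : 48 * (Cs * qq z) + 32 * c / θ' + 2 * θ ≤ 8 * δ)
    (e3 : (192 * n * (Cs * qq z) + 8 * (θ + n * (80 * η + 64 * Cs * qq z)) +
        64 * n ^ 2 * (10 + 4 * Cs) ^ 2 * ((a + c) * a)) + 6 * θ ≤ 32 * n * δ)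
    (U V : V n) (x y : ℝ) :
    8 * (1 - δ) * (w.φ₂ (u z) * dd (U, V) u z ^ 2 + Real.exp (u z) * s2 (U - V)) -
      32 * n * (1 + δ) * (Real.exp (u z) ^ 2 * ((x + y) / 2) ^ 2) -
      ((8 * (4096 * n ^ 2 / θ + 288 * n) + 64 * n ^ 2 * (10 + 4 * Cs) ^ 2 * (a + c)) +
        ((576 * M) ^ 2 / (2 * θ) + 3) + 16 * CF) *
        (Real.exp (u z) * w.φ₂ (u z) * ((x - y) / 2) ^ 2) -
      8 * n * η * (s2 U + s2 V) ≤ st (W0 u w) U V x y z := by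
  have hη : 0 ≤ η := g.ρ0.trans g.ρη
  have hE := Real.exp_pos (u z)
  have hσ2 : √(qq z) ^ 2 = qq z := Real.sq_sqrt (qq_nonneg z)
  have hy2 : √(s2 (U - V)) ^ 2 = s2 (U - V) := Real.sq_sqrt (sum_nonneg fun _ _ => sq_nonneg _)
  have A1 := he_le h (U, V) hc hθ' hη (hcv (U, V))
  have A2 := ZZ_le hu hw h g ha ha0 hc hc0 hθ x y
  have A3 := third_le hu h g (U, V) (x := x) (y := y) hnM hCM hnC
  have A4 := Gt_le (s := |dd (U, V) u z|) (y := √(s2 (U - V))) (H := Hv (U, V))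
    (b := |(x + y) / 2|) (c := |(x - y) / 2|) hθ hθ1 h.Cd0 hη h.K1 h.KE
    (σ := √(qq z)) (by rw [hσ2]; exact h.tK) c1 c2 c3
  have A5 := four_le (x := x) (y := y) hE h.K1 h.KE h.Cd0 hCF f1 f2 f3 c4 c5
  rw [sq_abs, hy2, sq_abs, sq_abs] at A4
  have A6 : 8 * (x * LX' u w (U, V) z + y * LY' u w (U, V) z) ≤ 576 * M *
      Gt Cd η (Real.exp (u z)) (w.φ₂ (u z)) (√(qq z)) |dd (U, V) u z| (√(s2 (U - V)))
        (Hv (U, V)) |(x + y) / 2| |(x - y) / 2| := by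
    have := (le_abs_self _).trans A3
    linarith
  have hX : 0 ≤ w.φ₂ (u z) * dd (U, V) u z ^ 2 := mul_nonneg h.K0.le (sq_nonneg _)
  have hY : 0 ≤ Real.exp (u z) * s2 (U - V) :=
    mul_nonneg hE.le (sum_nonneg fun _ _ => sq_nonneg _)
  have hS : 0 ≤ s2 U + s2 V :=
    add_nonneg (sum_nonneg fun _ _ => sq_nonneg _) (sum_nonneg fun _ _ => sq_nonneg _)
  exact fin_num hX hY (by positivity) hS A1 A2 (A6.trans A4) A5 (Hv_sq (U, V)) hη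
    (st_W hu hw U V x y z) e1 e2 e3 (by linarith)

end Vale.Agent.P088.R2.H321.ZI
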