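import Vale.Agent.P088.R2.H321.ZI.PU7
import Vale.Agent.P088.R2.H406.ZI.Fou

/-!
# Zone I: the pointwise inequality with a curved level, choice of the constants
-/

open Set Finset
open scoped ContDiff

noncomputable section

namespace Vale.Agent.P088.R2.H321.ZI

open Vale.Agent.P088.LR Vale.Agent.P088.HY
open Vale.Agent.P088.R2.H644 Vale.Agent.P088.R2.H205.CP
open Vale.Agent.P088.R2.H406.U (Dir dirx diry)

/-- The derivatives of `u` at a point. -/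
structure UD {n : ℕ} (η ρ N K : ℝ) (u : VV n → ℝ) (z : VV n) : Prop where
  ρ0 : 0 ≤ ρ
  ρη : ρ ≤ η
  Nρ : N * ρ ≤ η * K
  u1 : ∀ a ∈ Dir n, |dd a u z| ≤ 2
  gd : ∀ i, |dx i u z - dy i u z| ≤ η
  u2 : ∀ a ∈ Dir n, ∀ b ∈ Dir n, |dd a (dd b u) z| ≤ ρ
  u3 : ∀ a ∈ Dir n, ∀ b ∈ Dir n, ∀ c ∈ Dir n, |dd a (dd b (dd c u)) z| ≤ ρ
  u4 : ∀ a ∈ Dir n, ∀ b ∈ Dir n, ∀ c ∈ Dir n, ∀ d ∈ Dir n,
    |dd a (dd b (dd c (dd d u))) z| ≤ ρ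
  cv : ∀ v : VV n, -(η * K * dd v u z ^ 2) ≤ N * dd v (dd v u) z

/-- The profile at a point. -/
structure PP (Cs : ℝ) (w : Fn) (s : ℝ) : Prop where
  P0 : 0 ≤ w.Ψ s
  P0' : w.Ψ s ≤ s
  P1 : |w.Ψ₁ s - 1 / 2| ≤ Cs * s
  P2 : |w.Ψ₂ s| ≤ Cs
  P3 : |w.Ψ₃ s| ≤ Cs
  P4 : |w.Ψ₄ s| ≤ Cs

theorem UD.toPU {n : ℕ} {η ρ N K : ℝ} {u : VV n → ℝ} {z : VV n} (g : UD η ρ N K u z)
    (h : η ≤ 1) : PU η ρ N K u z where
  ρ0 := g.ρ0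
  η1 := h
  ρη := g.ρη
  Nρ := g.Nρ
  ga i := g.u1 _ (dirx i)
  gb i := g.u1 _ (diry i)
  gd := g.gd
  xx i j := g.u2 _ (dirx i) _ (dirx j)
  xy i j := g.u2 _ (dirx i) _ (diry j)
  yx i j := g.u2 _ (diry i) _ (dirx j)
  yy i j := g.u2 _ (diry i) _ (diry j)
  xxx i j := g.u3 _ (dirx i) _ (dirx j) _ (dirx j)
  yxx i j := g.u3 _ (diry i) _ (dirx j) _ (dirx j)
  xyy i j := g.u3 _ (dirx i) _ (diry j) _ (diry j)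
  yyy i j := g.u3 _ (diry i) _ (diry j) _ (diry j)

/-- The numbers of the choice. -/
theorem cst {n Cs δ M : ℝ} (hn : 1 ≤ n) (hCs : 0 < Cs) (hδ : 0 < δ) (hδ1 : δ ≤ 1)
    (hM : 1 ≤ M) {q a c η : ℝ} (hq : Cs * q ≤ δ / 256) (hq0 : 0 ≤ Cs * q)
    (ha0 : 0 ≤ a) (ha1 : a ≤ 1) (ha : a ≤ δ / (128 * n * (10 + 4 * Cs) ^ 2))
    (hc : c = δ ^ 2 / 256) (hη : η ≤ δ / (16 * (576 * M) ^ 2)) :
    16 * η + 8 * (δ / 8) + 4 * (δ / 64) ≤ 8 * δ ∧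
    48 * (Cs * q) + 32 * c / (δ / 8) + 2 * (δ / 64) ≤ 8 * δ ∧
    (192 * n * (Cs * q) + 8 * (δ / 64 + n * (80 * η + 64 * Cs * q)) +
        64 * n ^ 2 * (10 + 4 * Cs) ^ 2 * ((a + c) * a)) + 6 * (δ / 64) ≤ 32 * n * δ ∧
    η * (576 * M) ^ 2 ≤ 4 * (δ / 64) := by
  have h1 : (1 : ℝ) ≤ (576 * M) ^ 2 / 576 := by nlinarith
  have hη' : η * (16 * (576 * M) ^ 2) ≤ δ := by rwa [le_div_iff₀ (by positivity)] at hη
  have hη2 : 640 * η ≤ δ := by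
    by_cases h0 : η ≤ 0
    · linarith
    · push Not at h0
      nlinarith
  have e2 : 32 * c / (δ / 8) = δ := by
    rw [hc]
    field_simp
    ring
  have e3 : 64 * n ^ 2 * (10 + 4 * Cs) ^ 2 * ((a + c) * a) ≤ n * δ := by
    have k1 : a * (128 * n * (10 + 4 * Cs) ^ 2) ≤ δ := by rwa [le_div_iff₀ (by positivity)] at ha
    have k2 : a + c ≤ 2 := by
      rw [hc]
      nlinarith
    have k3 : 64 * n ^ 2 * (10 + 4 * Cs) ^ 2 * ((a + c) * a) =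
        n * (a * (128 * n * (10 + 4 * Cs) ^ 2)) * ((a + c) / 2) := by ring
    have k4 : 0 ≤ n * (a * (128 * n * (10 + 4 * Cs) ^ 2)) := by positivity
    rw [k3]
    calc n * (a * (128 * n * (10 + 4 * Cs) ^ 2)) * ((a + c) / 2) ≤
        n * (a * (128 * n * (10 + 4 * Cs) ^ 2)) * 1 :=
          mul_le_mul_of_nonneg_left (by linarith) k4
      _ ≤ n * δ := by
          rw [mul_one]
          exact mul_le_mul_of_nonneg_left k1 (by linarith)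
  refine ⟨by linarith, ?_, ?_, by linarith⟩
  · rw [e2]
    linarith
  · have k1 : n * (Cs * q) ≤ n * (δ / 256) := mul_le_mul_of_nonneg_left hq (by linarith)
    have k2 : n * (640 * η) ≤ n * δ := mul_le_mul_of_nonneg_left hη2 (by linarith)
    have k3 : 1 * δ ≤ n * δ := mul_le_mul_of_nonneg_right hn hδ.le
    linarith

theorem cst2 {θ M CF Cd K E : ℝ} (hθ : 0 < θ) (hM : 1 ≤ M) (hCF : 0 ≤ CF) (hCd : 0 ≤ Cd)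
    (hK : (576 * M * (Cd + 1)) ^ 2 / (4 * θ ^ 2) + 8 * CF * (2 + Cd) / θ + (1 + Cd) + 1 ≤ K) :
    1 ≤ K ∧ (576 * M) ^ 2 ≤ 4 * θ ^ 2 * K ∧ (576 * M * (Cd + 1)) ^ 2 ≤ 4 * θ ^ 2 * K ∧
      8 * CF * (2 + Cd) ≤ θ * K ∧ 1 + Cd ≤ K ∧ (K ≤ E → 4 * θ ^ 2 * K ≤ 4 * θ ^ 2 * E ∧
        θ * K ≤ θ * E) := by
  have p1 : 0 ≤ (576 * M * (Cd + 1)) ^ 2 / (4 * θ ^ 2) := by positivity
  have p2 : 0 ≤ 8 * CF * (2 + Cd) / θ := by positivity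
  have c2 : (576 * M * (Cd + 1)) ^ 2 ≤ 4 * θ ^ 2 * K := by
    have : (576 * M * (Cd + 1)) ^ 2 / (4 * θ ^ 2) ≤ K := by linarith
    rw [div_le_iff₀ (by positivity)] at this
    linarith
  refine ⟨by linarith, ?_, c2, ?_, by linarith, fun hKE => ⟨?_, ?_⟩⟩
  · refine le_trans ?_ c2
    have : 576 * M ≤ 576 * M * (Cd + 1) := by nlinarith
    exact pow_le_pow_left₀ (by positivity) this 2
  · have : 8 * CF * (2 + Cd) / θ ≤ K := by linarith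
    rw [div_le_iff₀ hθ] at this
    linarith
  · exact mul_le_mul_of_nonneg_left hKE (by positivity)
  · exact mul_le_mul_of_nonneg_left hKE hθ.le

theorem c01 {δ c : ℝ} (hδ : 0 < δ) (hδ1 : δ ≤ 1) (hc : c = δ ^ 2 / 256) : 0 ≤ c ∧ c ≤ 1 := by
  rw [hc]
  exact ⟨by positivity, by nlinarith⟩

theorem qc {Cs δ q : ℝ} (hCs : 0 < Cs) (hδ : 0 < δ) (hδ1 : δ ≤ 1)
    (hq : q ≤ min 1 (δ / (256 * Cs))) : Cs * q ≤ δ / 256 ∧ Cs * q ≤ 1 / 2 := by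
  have h1 := hq.trans (min_le_right _ _)
  rw [le_div_iff₀ (by positivity)] at h1
  constructor <;> linarith

/-- The constants and one step. -/
theorem PIu1 {n : ℕ} (hn1 : (1 : ℝ) ≤ n) {Cs δ : ℝ} (hCs : 0 < Cs) (hδ : 0 < δ) (hδ1 : δ ≤ 1)
    {CF : ℝ} (hCF : 0 < CF) {M a c : ℝ} (hM1 : 1 ≤ M) (hnM : (n : ℝ) ≤ M) (hCM : Cs ≤ M)
    (hnC : n * Cs ≤ M) (ha0 : 0 < a) (ha1 : a ≤ 1)
    (haK : a ≤ δ / (128 * n * (10 + 4 * Cs) ^ 2)) (hc : c = δ ^ 2 / 256)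
    {Cd : ℝ} (hCd : 0 ≤ Cd)
    {u : VV n → ℝ} {w : Fn} {z : VV n} {η ρ : ℝ} (hu : ContDiff ℝ ∞ u)
    (hw : FnD w) (hN : 0 < w.φ₁ (u z))
    (hK : (576 * M * (Cd + 1)) ^ 2 / (4 * (δ / 64) ^ 2) + 8 * CF * (2 + Cd) / (δ / 64) +
      (1 + Cd) + 1 ≤ w.φ₂ (u z))
    (hKa : w.φ₂ (u z) ≤ a * Real.exp (u z))
    (hEc : Real.exp (u z) * qq z ≤ c * w.φ₂ (u z)) (hEN : Real.exp (u z) * qq z ≤ w.φ₁ (u z))
    (hq : qq z ≤ min 1 (δ / (256 * Cs))) (h3 : |w.φ₃ (u z)| ≤ Cd * w.φ₂ (u z))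
    (P : PP Cs w (qq z)) (g : UD η ρ (w.φ₁ (u z)) (w.φ₂ (u z)) u z)
    (hη : η ≤ δ / (16 * (576 * M) ^ 2))
    (f1 : |lx (LX u w) z| ≤ CF * (Real.exp (u z) + (1 + Cd) * w.φ₂ (u z)))
    (f2 : |lx (LY u w) z| ≤ CF * (Real.exp (u z) + (1 + Cd) * w.φ₂ (u z)))
    (f3 : |ly (LY u w) z| ≤ CF * (Real.exp (u z) + (1 + Cd) * w.φ₂ (u z)))
    (hη1 : η ≤ 1) (U V : V n) (x y : ℝ) :
    8 * (1 - δ) * (w.φ₂ (u z) * dd (U, V) u z ^ 2 + Real.exp (u z) * s2 (U - V)) -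
      32 * n * (1 + δ) * (Real.exp (u z) ^ 2 * ((x + y) / 2) ^ 2) -
      ((8 * (4096 * n ^ 2 / (δ / 64) + 288 * n) + 64 * n ^ 2 * (10 + 4 * Cs) ^ 2 * (a + c)) +
        ((576 * M) ^ 2 / (2 * (δ / 64)) + 3) + 16 * CF) *
        (Real.exp (u z) * w.φ₂ (u z) * ((x - y) / 2) ^ 2) -
      8 * n * η * (s2 U + s2 V) ≤ st (W0 u w) U V x y z := by
  have hE := Real.exp_pos (u z)
  have hKE : w.φ₂ (u z) ≤ Real.exp (u z) :=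
    hKa.trans ((mul_le_mul_of_nonneg_right ha1 hE.le).trans_eq (one_mul _))
  have hθ : 0 < δ / 64 := by positivity
  obtain ⟨hK1, c1, c2, c4, c5, c6⟩ := cst2 (E := Real.exp (u z)) hθ hM1 hCF.le hCd hK
  obtain ⟨c7, c8⟩ := c6 hKE
  obtain ⟨hc0, hc1⟩ := c01 hδ hδ1 hc
  have hEK : c * w.φ₂ (u z) ≤ w.φ₂ (u z) :=
    (mul_le_mul_of_nonneg_right hc1 (zero_le_one.trans hK1)).trans_eq (one_mul _)
  obtain ⟨hqC, hqC'⟩ := qc hCs hδ hδ1 hq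
  have hq0 : 0 ≤ Cs * qq z := mul_nonneg hCs.le (qq_nonneg z)
  obtain ⟨k1, k2, k3, k4⟩ := cst hn1 hCs hδ hδ1 hM1 hqC hq0 ha0.le ha1 haK hc hη
  have PN' : PN Cs Cd u w z :=
    { Cs0 := hCs.le, Cd0 := hCd, N0 := hN, K1 := hK1, KE := hKE
      tK := hEc.trans hEK, tN := hEN, d3 := h3, q1 := hq.trans (min_le_left _ _)
      qC := hqC', P0 := P.P0, P0' := P.P0', P1 := P.P1, P2 := P.P2, P3 := P.P3 }
  have hθ1 : δ / 64 ≤ 1 := (div_le_self hδ.le (by norm_num)).trans hδ1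
  have hθ' : 0 < δ / 8 := div_pos hδ (by norm_num)
  have hcv : ∀ v : VV n, -(η * w.φ₂ (u z) * dd v u z ^ 2) ≤ w.φ₁ (u z) * hs u v z :=
    fun v => by rw [hs_dd hu]; exact g.cv v
  exact piu hn1 hu hw PN' (g.toPU hη1) hnM hCM hnC hKa ha0.le hEc hc0 hθ
    hθ1 hθ' hcv hCF.le f1 f2 f3 c1
    (c2.trans c7) k4 (c4.trans c8) (c5.trans hKE) k1 k2 k3 U V x y

/-- **The pointwise inequality of region I with a curved level.** -/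
theorem PIu (n : ℕ) (hn : 1 ≤ n) (Cs δ : ℝ) (hCs : 0 < Cs) (hδ : 0 < δ) (hδ1 : δ ≤ 1) :
    ∃ a c s₀ η₀ C : ℝ, 0 < a ∧ 0 < c ∧ 0 < s₀ ∧ 0 < η₀ ∧ 0 < C ∧ ∀ Cd : ℝ, 0 ≤ Cd →
    ∃ C₁ : ℝ, 0 < C₁ ∧ ∀ (u : VV n → ℝ) (w : Fn) (z : VV n) (η ρ : ℝ), ContDiff ℝ ∞ u →
    FnD w → ContDiff ℝ ∞ w.φ → ContDiff ℝ ∞ w.Ψ → 0 < w.φ₁ (u z) → C₁ ≤ w.φ₂ (u z) →
    w.φ₂ (u z) ≤ a * Real.exp (u z) → Real.exp (u z) * qq z ≤ c * w.φ₂ (u z) →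
    Real.exp (u z) * qq z ≤ w.φ₁ (u z) → qq z ≤ s₀ → |w.φ₃ (u z)| ≤ Cd * w.φ₂ (u z) →
    |w.φ₄ (u z)| ≤ Cd * w.φ₂ (u z) → PP Cs w (qq z) →
    UD η ρ (w.φ₁ (u z)) (w.φ₂ (u z)) u z → η ≤ η₀ → ∀ (U V : V n) (x y : ℝ),
    8 * (1 - δ) * (w.φ₂ (u z) * dd (U, V) u z ^ 2 + Real.exp (u z) * s2 (U - V)) -
      32 * n * (1 + δ) * (Real.exp (u z) ^ 2 * ((x + y) / 2) ^ 2) -
      C * (Real.exp (u z) * w.φ₂ (u z) * ((x - y) / 2) ^ 2) -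
      8 * n * η * (s2 U + s2 V) ≤ st (W0 u w) U V x y z := by
  obtain ⟨CF, hCF, HF⟩ := H406.U.fou n (Cs + 1) (by linarith)
  have hn1 : (1 : ℝ) ≤ n := by exact_mod_cast hn
  obtain ⟨M, hM⟩ : ∃ M : ℝ, M = (n + 1) * (Cs + 1) := ⟨_, rfl⟩
  have hM1 : 1 ≤ M := by rw [hM]; nlinarith
  have hnM : (n : ℝ) ≤ M := by rw [hM]; nlinarith
  have hCM : Cs ≤ M := by rw [hM]; nlinarith
  have hnC : n * Cs ≤ M := by rw [hM]; nlinarith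
  obtain ⟨a, ha⟩ : ∃ a : ℝ, a = min 1 (δ / (128 * n * (10 + 4 * Cs) ^ 2)) := ⟨_, rfl⟩
  have ha0 : 0 < a := by
    rw [ha]
    exact lt_min one_pos (by positivity)
  have ha1 : a ≤ 1 := by rw [ha]; exact min_le_left _ _
  have haK : a ≤ δ / (128 * n * (10 + 4 * Cs) ^ 2) := by rw [ha]; exact min_le_right _ _
  refine ⟨a, δ ^ 2 / 256, min 1 (δ / (256 * Cs)), δ / (16 * (576 * M) ^ 2),
    (8 * (4096 * n ^ 2 / (δ / 64) + 288 * n) + 64 * n ^ 2 * (10 + 4 * Cs) ^ 2 *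
      (a + δ ^ 2 / 256)) + ((576 * M) ^ 2 / (2 * (δ / 64)) + 3) + 16 * CF, ha0, by positivity,
    lt_min one_pos (by positivity), by positivity, by positivity, ?_⟩
  intro Cd hCd
  refine ⟨(576 * M * (Cd + 1)) ^ 2 / (4 * (δ / 64) ^ 2) + 8 * CF * (2 + Cd) / (δ / 64) +
    (1 + Cd) + 1, by positivity, ?_⟩
  intro u w z η ρ hu hw sφ sΨ hN hK hKa hEc hEN hq h3 h4 P g hη U V x y
  have hη1 : η ≤ 1 := by
    have h1 : (1 : ℝ) ≤ (576 * M) ^ 2 := by nlinarith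
    rw [le_div_iff₀ (by positivity)] at hη
    by_cases h0 : η ≤ 0
    · linarith
    · push Not at h0
      nlinarith
  obtain ⟨hK1, -⟩ := cst2 (E := 0) (show 0 < δ / 64 by positivity) hM1 hCF.le hCd hK
  have hq1 : qq z ≤ 1 := hq.trans (min_le_left _ _)
  have hqC := (qc hCs hδ hδ1 hq).2
  have h11 := abs_le.1 P.P1
  obtain ⟨f1, f2, f3⟩ := HF Cd hCd u w z ρ hu hw sφ sΨ h3 h4 hN.le hK1 hq1
    (by rw [abs_of_nonneg P.P0]; linarith [P.P0']) (abs_le.2 ⟨by linarith, by linarith⟩)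
    (P.P2.trans (by linarith)) (P.P3.trans (by linarith)) (P.P4.trans (by linarith))
    g.u1 g.u2 g.u3 g.u4 g.ρ0 (g.ρη.trans hη1) (g.Nρ.trans (by nlinarith))
  exact PIu1 hn1 hCs hδ hδ1 hCF hM1 hnM hCM hnC ha0 ha1 haK rfl hCd hu hw hN hK hKa hEc hEN hq
    h3 P g hη f1 f2 f3 hη1 U V x y

end Vale.Agent.P088.R2.H321.ZI
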